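import Vale.Agent.P267.H433.Hol

/-!
# P267 / H433 (RRC-LOC): the value of `r` on the diagonal

With `al k = Df⁻¹ ∂_k Df` (2×2 matrices), `ep k = e⁻¹ ∂_k e`, for a trace `τ` on `A`:
`τ (r (x,x)) = dens T (S∘T) x` (`CompOn.tr_r_diag`), the Todd density
`rk [ (1/8) κ∧κ' - (1/24) tr(α∧α') ] + (1/4)(κ∧tr ε' + tr ε∧κ') + (1/2) tr(ε∧ε')`.
-/

set_option linter.unusedSectionVars false

namespace Vale.Agent.P267.H433

open scoped ContDiff Topology ComplexConjugate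
open Set Filter MeasureTheory

noncomputable section

variable {A : Type} [NormedRing A] [NormedAlgebra ℂ A]

theorem dy_const {W : Type} [NormedAddCommGroup W] [NormedSpace ℂ W] (c : W) (p : VV)
    (k : Fin 2) : dy k (fun _ : VV => c) p = 0 := by
  simp [dy]

/-- Leibniz rule when the second factor vanishes at the point -/
theorem dy_mul_zero {φ ψ : VV → ℂ} {p : VV} (h1 : DifferentiableAt ℂ φ p)
    (h2 : DifferentiableAt ℂ ψ p) (h0 : ψ p = 0) (k : Fin 2) :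
    dy k (fun q => φ q * ψ q) p = φ p * dy k ψ p := by
  rw [dy_mul h1 h2, h0, mul_zero, zero_add]

/-- derivative of the inverse of a non vanishing function -/
theorem dy_inv {D : Set VV} (hD : IsOpen D) {φ : VV → ℂ} (hφ : ContDiffOn ℂ ∞ φ D)
    (hne : ∀ p ∈ D, φ p ≠ 0) {p : VV} (hp : p ∈ D) (k : Fin 2) :
    dy k (fun q => (φ q)⁻¹) p = -((φ p)⁻¹ * (φ p)⁻¹ * dy k φ p) := by
  have h1 := dAt hD hφ hp
  have hi : ContDiffOn ℂ ∞ (fun q => (φ q)⁻¹) D := hφ.inv hne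
  have h2 := dAt hD hi hp
  have e1 : dy k (fun q => φ q * (φ q)⁻¹) p = 0 := by
    rw [← dy_const (1 : ℂ) p k]
    exact dy_congr_of_eqOn hD (fun q hq => mul_inv_cancel₀ (hne q hq)) hp k
  rw [dy_mul h1 h2] at e1
  have h3 := mul_inv_cancel₀ (hne p hp)
  linear_combination (φ p)⁻¹ * e1 - dy k (fun q => (φ q)⁻¹) p * h3

namespace Tr

variable (T : Tr A)

/-- the jacobian matrix of `f` -/
def Jm (y : V2) : Matrix (Fin 2) (Fin 2) ℂ := Matrix.of fun i k => T.df i k y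

/-- its derivative in the direction `k` -/
def dJm (k : Fin 2) (y : V2) : Matrix (Fin 2) (Fin 2) ℂ :=
  Matrix.of fun i l => fderiv ℂ (T.df i l) y (ee k)

/-- `Df⁻¹ ∂_k Df` -/
def al (k : Fin 2) (y : V2) : Matrix (Fin 2) (Fin 2) ℂ := (T.Jm y)⁻¹ * T.dJm k y

/-- `e⁻¹ ∂_k e` -/
def ep (k : Fin 2) (y : V2) : A := T.ei y * fderiv ℂ T.e y (ee k)

theorem det_Jm (y : V2) : (T.Jm y).det = T.jac y := by
  simp [Matrix.det_fin_two, Jm, jac]

variable {T} {D : Set VV} {Ω : Set V2}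

namespace On

variable (h : T.On D Ω)
include h

theorem ddf_symm {y : V2} (hy : y ∈ Ω) (i k l : Fin 2) :
    fderiv ℂ (T.df i l) y (ee k) = fderiv ℂ (T.df i k) y (ee l) := by
  have hc : ContDiffAt ℂ ∞ T.f y := h.hf.contDiffAt (h.isOpen.mem_nhds hy)
  have h2 : ContDiffAt ℂ ∞ (fderiv ℂ T.f) y := hc.fderiv_right (m := ∞) (by simp)
  have h3 : DifferentiableAt ℂ (fderiv ℂ T.f) y := h2.differentiableAt (by simp)
  have h4 : ∀ u v : V2, fderiv ℂ (fun y => fderiv ℂ T.f y u i) y v =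
      fderiv ℂ (fderiv ℂ T.f) y v u i := by
    intro u v
    have e1 := h3.hasFDerivAt.clm_apply (hasFDerivAt_const u y)
    have e2 := (ContinuousLinearMap.proj (R := ℂ) (φ := fun _ : Fin 2 => ℂ) i).hasFDerivAt.comp
      y e1
    have e3 : HasFDerivAt (fun y => fderiv ℂ T.f y u i) _ y := e2
    rw [e3.fderiv]
    simp
  have hsymm : IsSymmSndFDerivAt ℂ T.f y := hc.isSymmSndFDerivAt (by
    rw [minSmoothness_of_isRCLikeNormedField]
    exact WithTop.coe_le_coe.2 (le_top : (2 : ℕ∞) ≤ ⊤))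
  change fderiv ℂ (fun y => fderiv ℂ T.f y (ee l) i) y (ee k) =
    fderiv ℂ (fun y => fderiv ℂ T.f y (ee k) i) y (ee l)
  rw [h4, h4, hsymm.eq]

theorem jac_ne {x : V2} (hx : (x, x) ∈ D) : T.jac x ≠ 0 := by
  rw [← h.dM_diag hx]; exact h.dM_ne _ hx

/-- the derivatives of `M` on the diagonal -/
theorem dy_M_diag {x : V2} (hx : (x, x) ∈ D) (i k l : Fin 2) :
    dy k (T.M i l) (x, x) = (1 / 2) * T.dJm k x i l := by
  have e1 : dy k (T.M i l) (x, x) = Io 1 (dy k (dy l (T.fi i))) (x, x) :=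
    dy_Io h.star (dy_contDiffOn h.oD (h.cfi i) l) 0 hx k
  have e2 : dy k (dy l (T.fi i)) (x, x) = dy k (fun q : VV => T.df i l q.2) (x, x) :=
    dy_congr_of_eqOn h.oD (fun q hq => h.dy_fi hq i l) hx k
  have e3 := dy_snd (φ := T.df i l) (p := (x, x)) (dAt h.isOpen (h.cdf i l) (h.snd_mem _ hx)) k
  rw [e1, Io_diag, e2, e3]
  simp only [dJm, Matrix.of_apply, smul_eq_mul]
  norm_num

theorem dAt_df {y : V2} (hy : y ∈ Ω) (i k : Fin 2) : DifferentiableAt ℂ (T.df i k) y :=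
  dAt h.isOpen (h.cdf i k) hy

/-- Jacobi's formula -/
theorem fderiv_jac {x : V2} (hx : x ∈ Ω) (k : Fin 2) :
    fderiv ℂ T.jac x (ee k) = T.dJm k x 0 0 * T.df 1 1 x + T.df 0 0 x * T.dJm k x 1 1 -
      (T.dJm k x 0 1 * T.df 1 0 x + T.df 0 1 x * T.dJm k x 1 0) := by
  have d := h.dAt_df hx
  have e : HasFDerivAt T.jac _ x := ((d 0 0).hasFDerivAt.mul (d 1 1).hasFDerivAt).sub
    ((d 0 1).hasFDerivAt.mul (d 1 0).hasFDerivAt)
  rw [e.fderiv]
  simp only [sub_apply, add_apply, smul_apply, smul_eq_mul, dJm, Matrix.of_apply]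
  ring

theorem tr_al {x : V2} (hx : (x, x) ∈ D) (k : Fin 2) :
    (T.al k x).trace = (T.jac x)⁻¹ * fderiv ℂ T.jac x (ee k) := by
  rw [h.fderiv_jac (h.snd_mem _ hx), al, Matrix.inv_def, det_Jm, Ring.inverse_eq_inv',
    Matrix.adjugate_fin_two]
  simp only [Matrix.trace_fin_two, Matrix.mul_apply, Fin.sum_univ_two, Matrix.smul_apply,
    smul_eq_mul, Matrix.of_apply, Matrix.cons_val', Matrix.cons_val_zero, Matrix.cons_val_one,
    Matrix.cons_val_fin_one, Jm]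
  ring

theorem dy_dM_diag {x : V2} (hx : (x, x) ∈ D) (k : Fin 2) :
    dy k T.dM (x, x) = (1 / 2) * fderiv ℂ T.jac x (ee k) := by
  have m : ∀ i l, DifferentiableAt ℂ (T.M i l) (x, x) := fun i l => dAt h.oD (h.cM i l) hx
  have e : dy k T.dM (x, x) = dy k (fun p => T.M 0 0 p * T.M 1 1 p - T.M 0 1 p * T.M 1 0 p)
    (x, x) := rfl
  rw [e, dy_sub ((m 0 0).fun_mul (m 1 1)) ((m 0 1).fun_mul (m 1 0)), dy_mul (m 0 0) (m 1 1),
    dy_mul (m 0 1) (m 1 0)]
  simp only [h.dy_M_diag hx, h.M_diag hx]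
  rw [h.fderiv_jac (h.snd_mem _ hx)]
  ring

/-- `J` on the diagonal: `½ tr (al k) + ep k` -/
theorem J_diag [CompleteSpace A] {x : V2} (hx : (x, x) ∈ D) (k : Fin 2) :
    T.J k (x, x) = ((1 / 2) * (T.al k x).trace) • (1 : A) + T.ep k x := by
  have hxΩ : x ∈ Ω := h.snd_mem _ hx
  have hd := h.jac_ne hx
  have ci : ContDiffOn ℂ ∞ (fun p => (T.dM p)⁻¹) D := h.cdM.inv fun p hp => h.dM_ne p hp
  have d1 := dAt h.oD ci hx
  have d2 : DifferentiableAt ℂ (fun p : VV => T.jac p.2) (x, x) := dAt h.oD (h.comp_snd h.cjac) hx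
  have d3 : DifferentiableAt ℂ (fun p : VV => T.ei p.1) (x, x) := dAt h.oD (h.comp_fst h.hei) hx
  have d4 : DifferentiableAt ℂ (fun p : VV => T.e p.2) (x, x) := dAt h.oD (h.comp_snd h.he) hx
  have e0 : T.J k (x, x) = dy k T.j (x, x) := by
    rw [J, Io_diag]
    simp
  have e1 : dy k T.j (x, x) = dy k (fun p : VV => ((T.dM p)⁻¹ * T.jac p.2) •
    (T.ei p.1 * T.e p.2)) (x, x) := rfl
  rw [e0, e1, dy_smul (d1.fun_mul d2) (d3.fun_mul d4), dy_mul d1 d2, dy_mul d3 d4,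
    dy_inv h.oD h.cdM h.dM_ne hx, h.dy_dM_diag hx, h.dM_diag hx,
    dy_snd (φ := T.jac) (dAt h.isOpen h.cjac hxΩ), dy_fst (φ := T.ei) (dAt h.isOpen h.hei hxΩ),
    dy_snd (φ := T.e) (dAt h.isOpen h.he hxΩ), h.tr_al hx]
  simp only [zero_mul, zero_add, h.ei_e x hxΩ, ep]
  rw [inv_mul_cancel₀ hd, one_smul]
  congr 2
  field_simp
  ring

end On

variable {S : Tr A} {D' : Set VV} {Ω' : Set V2}

namespace CompOn

variable (h : CompOn S T D D' Ω Ω')
include h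

theorem fst_eq {x : V2} (hx : (x, x) ∈ D) : (T.f x, T.f x) ∈ D' := h.maps _ hx

theorem dJm_comp {x : V2} (hx : x ∈ Ω) (k i l : Fin 2) :
    (S.comp T).dJm k x i l =
      (T.df 0 k x * S.dJm 0 (T.f x) i 0 + T.df 1 k x * S.dJm 1 (T.f x) i 0) * T.df 0 l x +
      (T.df 0 k x * S.dJm 0 (T.f x) i 1 + T.df 1 k x * S.dJm 1 (T.f x) i 1) * T.df 1 l x +
      (S.df i 0 (T.f x) * T.dJm k x 0 l + S.df i 1 (T.f x) * T.dJm k x 1 l) := by
  have hf := (dAt h.hT.isOpen h.hT.hf hx).hasFDerivAt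
  have dS : ∀ m : Fin 2, HasFDerivAt (fun y => S.df i m (T.f y))
      ((fderiv ℂ (S.df i m) (T.f x)).comp (fderiv ℂ T.f x)) x := fun m =>
    (dAt h.hS.isOpen (h.hS.cdf i m) (h.maps' x hx)).hasFDerivAt.comp x hf
  have dT := h.hT.dAt_df hx
  have e0 : (S.comp T).df i l =ᶠ[𝓝 x]
      fun y => S.df i 0 (T.f y) * T.df 0 l y + S.df i 1 (T.f y) * T.df 1 l y := by
    filter_upwards [h.hT.isOpen.mem_nhds hx] with y hy using h.df_comp hy i l
  have e1 := ((dS 0).mul (dT 0 l).hasFDerivAt).add ((dS 1).mul (dT 1 l).hasFDerivAt)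
  have e2 : HasFDerivAt ((S.comp T).df i l) _ x := e1.congr_of_eventuallyEq e0
  have e3 : ∀ m : Fin 2, fderiv ℂ (S.df i m) (T.f x) (fderiv ℂ T.f x (ee k)) =
      T.df 0 k x * S.dJm 0 (T.f x) i m + T.df 1 k x * S.dJm 1 (T.f x) i m := by
    intro m
    conv_lhs => rw [eq_ee (fderiv ℂ T.f x (ee k))]
    rw [map_add, map_smul, map_smul]
    rfl
  have e4 : (S.comp T).dJm k x i l = fderiv ℂ ((S.comp T).df i l) x (ee k) := rfl
  rw [e4, e2.fderiv]
  simp only [add_apply, smul_apply, smul_eq_mul, ContinuousLinearMap.comp_apply]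
  rw [e3, e3]
  simp only [dJm, Matrix.of_apply]
  ring

/-- `∑_m (Df)_{mk} ∂_m Dg` at `f x` -/
def bm (_h : CompOn S T D D' Ω Ω') (k : Fin 2) (x : V2) : Matrix (Fin 2) (Fin 2) ℂ :=
  T.df 0 k x • S.dJm 0 (T.f x) + T.df 1 k x • S.dJm 1 (T.f x)

theorem Jm_comp {x : V2} (hx : x ∈ Ω) : (S.comp T).Jm x = S.Jm (T.f x) * T.Jm x := by
  ext i k
  simp only [Jm, Matrix.of_apply, Matrix.mul_apply, Fin.sum_univ_two]
  exact h.df_comp hx i k

theorem dJm_comp' {x : V2} (hx : x ∈ Ω) (k : Fin 2) :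
    (S.comp T).dJm k x = h.bm k x * T.Jm x + S.Jm (T.f x) * T.dJm k x := by
  ext i l
  simp only [h.dJm_comp hx, bm, Matrix.mul_apply, Matrix.add_apply, Matrix.smul_apply,
    Fin.sum_univ_two, Jm, Matrix.of_apply, smul_eq_mul]

/-- the cocycle relation for `al` -/
theorem al_comp {x : V2} (hx : (x, x) ∈ D) (k : Fin 2) :
    (S.comp T).al k x =
      (T.Jm x)⁻¹ * (S.Jm (T.f x))⁻¹ * (h.bm k x) * T.Jm x + T.al k x := by
  have hxΩ := h.hT.snd_mem _ hx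
  have d2 : IsUnit (S.Jm (T.f x)).det := by
    rw [det_Jm]; exact (h.hS.jac_ne (h.fst_eq hx)).isUnit
  rw [al, h.Jm_comp hxΩ, h.dJm_comp' hxΩ, Matrix.mul_inv_rev, al, Matrix.mul_add]
  congr 1
  · simp only [Matrix.mul_assoc]
  · rw [Matrix.mul_assoc, ← Matrix.mul_assoc (S.Jm (T.f x))⁻¹, Matrix.nonsing_inv_mul _ d2,
      Matrix.one_mul]

/-- the cocycle relation for `ep` -/
theorem ep_comp {x : V2} (hx : x ∈ Ω) (k : Fin 2) :
    (S.comp T).ep k x = T.df 0 k x • (T.ei x * S.ep 0 (T.f x) * T.e x) +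
      T.df 1 k x • (T.ei x * S.ep 1 (T.f x) * T.e x) + T.ep k x := by
  have hf := (dAt h.hT.isOpen h.hT.hf hx).hasFDerivAt
  have he := (dAt h.hT.isOpen h.hT.he hx).hasFDerivAt
  have hS : HasFDerivAt (fun y => S.e (T.f y)) ((fderiv ℂ S.e (T.f x)).comp (fderiv ℂ T.f x)) x :=
    (dAt h.hS.isOpen h.hS.he (h.maps' x hx)).hasFDerivAt.comp x hf
  have e1 : HasFDerivAt (S.comp T).e _ x := hS.mul' he
  have e3 : fderiv ℂ S.e (T.f x) (fderiv ℂ T.f x (ee k)) =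
      T.df 0 k x • fderiv ℂ S.e (T.f x) (ee 0) + T.df 1 k x • fderiv ℂ S.e (T.f x) (ee 1) := by
    conv_lhs => rw [eq_ee (fderiv ℂ T.f x (ee k))]
    rw [map_add, map_smul, map_smul]
    rfl
  have e4 : (S.comp T).ei x = T.ei x * S.ei (T.f x) := rfl
  rw [ep, e1.fderiv, e4]
  simp only [add_apply, smul_apply, ContinuousLinearMap.comp_apply, smul_eq_mul,
    MulOpposite.smul_eq_mul_unop, MulOpposite.unop_op]
  rw [e3]
  have e5 := h.hS.ei_e _ (h.maps' x hx)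
  have e6 : T.ei x * S.ei (T.f x) * (S.e (T.f x) * fderiv ℂ T.e x (ee k)) = T.ep k x := by
    rw [ep]
    calc T.ei x * S.ei (T.f x) * (S.e (T.f x) * fderiv ℂ T.e x (ee k))
        = T.ei x * ((S.ei (T.f x) * S.e (T.f x)) * fderiv ℂ T.e x (ee k)) := by noncomm_ring
      _ = _ := by rw [e5, one_mul]
  rw [mul_add, e6]
  simp only [ep, add_mul, mul_add, smul_mul_assoc, mul_smul_comm, mul_assoc]
  abel

/-- `B` on the diagonal -/
theorem B_diag [CompleteSpace A] {x : V2} (hx : (x, x) ∈ D) (k : Fin 2) :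
    S.B T k (x, x) = ((1 / 2) * (((S.comp T).al k x).trace - (T.al k x).trace)) • (1 : A) +
      ((S.comp T).ep k x - T.ep k x) := by
  have hxΩ := h.hT.snd_mem _ hx
  have hfx := h.fst_eq hx
  have e1 : ∀ m : Fin 2, S.X T m (x, x) =
      ((1 / 2) * (S.al m (T.f x)).trace) • (1 : A) + T.ei x * S.ep m (T.f x) * T.e x := by
    intro m
    have : S.X T m (x, x) = T.ei x * S.J m (T.f x, T.f x) * T.e x := rfl
    rw [this, h.hS.J_diag hfx, mul_add, add_mul, mul_smul_comm, smul_mul_assoc, mul_one,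
      h.hT.ei_e x hxΩ]
  have d1 : IsUnit (T.Jm x).det := by
    rw [det_Jm]; exact (h.hT.jac_ne hx).isUnit
  have e2 : ((S.comp T).al k x).trace - (T.al k x).trace =
      T.df 0 k x * (S.al 0 (T.f x)).trace + T.df 1 k x * (S.al 1 (T.f x)).trace := by
    rw [h.al_comp hx, Matrix.trace_add, add_sub_cancel_right]
    have : (T.Jm x)⁻¹ * (S.Jm (T.f x))⁻¹ * h.bm k x * T.Jm x =
        (T.Jm x)⁻¹ * ((S.Jm (T.f x))⁻¹ * h.bm k x * T.Jm x) := by simp only [Matrix.mul_assoc]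
    rw [this, Matrix.trace_mul_comm, Matrix.mul_assoc, Matrix.mul_nonsing_inv _ d1,
      Matrix.mul_one, bm, Matrix.mul_add, Matrix.mul_smul, Matrix.mul_smul, Matrix.trace_add,
      Matrix.trace_smul, Matrix.trace_smul]
    rfl
  have e3 : S.B T k (x, x) = T.M 0 k (x, x) • S.X T 0 (x, x) + T.M 1 k (x, x) • S.X T 1 (x, x) :=
    rfl
  rw [e3, e1, e1, h.hT.M_diag hx, h.hT.M_diag hx, h.ep_comp hxΩ, e2]
  module

end CompOn

end Tr

end

end Vale.Agent.P267.H433
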