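import Vale.Agent.P267.H433.Seg

/-!
# P267 / H433 (RRC-LOC): Hadamard matrices of a holomorphic transition

`Tr A`: a holomorphic change of coordinates `f` of `ℂ²` with a change of frame `e` (values in a
normed algebra `A`, inverse `ei`). `T.M i k`, `T.dM`, `T.jac`, `T.j`, `T.J k`:
`f(y) - f(x) = M (y - x)`, `j = det(M)⁻¹ det Df(y) e(x)⁻¹ e(y) = 1 + ⟨J, y - x⟩`.
-/

set_option linter.unusedSectionVars false

namespace Vale.Agent.P267.H433

open scoped ContDiff Topology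
open Set Filter MeasureTheory

noncomputable section

/-! ### rules for `dy` -/

section calcu

variable {W : Type} [NormedAddCommGroup W] [NormedSpace ℂ W]
variable {A : Type} [NormedRing A] [NormedAlgebra ℂ A]
variable {D : Set VV}

theorem dAt {E : Type} [NormedAddCommGroup E] [NormedSpace ℂ E] {D : Set E} (hD : IsOpen D)
    {F : E → W} (hF : ContDiffOn ℂ ∞ F D) {p : E} (hp : p ∈ D) :
    DifferentiableAt ℂ F p := (hF.contDiffAt (hD.mem_nhds hp)).differentiableAt (by simp)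

theorem dy_add {F G : VV → W} {p : VV} (hF : DifferentiableAt ℂ F p)
    (hG : DifferentiableAt ℂ G p) (k : Fin 2) :
    dy k (fun q => F q + G q) p = dy k F p + dy k G p := by
  unfold dy; rw [fderiv_fun_add hF hG]; rfl

theorem dy_sub {F G : VV → W} {p : VV} (hF : DifferentiableAt ℂ F p)
    (hG : DifferentiableAt ℂ G p) (k : Fin 2) :
    dy k (fun q => F q - G q) p = dy k F p - dy k G p := by
  unfold dy; rw [fderiv_fun_sub hF hG]; rfl

theorem dy_smul {φ : VV → ℂ} {G : VV → W} {p : VV} (hF : DifferentiableAt ℂ φ p)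
    (hG : DifferentiableAt ℂ G p) (k : Fin 2) :
    dy k (fun q => φ q • G q) p = dy k φ p • G p + φ p • dy k G p := by
  unfold dy; rw [fderiv_fun_smul hF hG]
  simp only [add_apply, smul_apply, ContinuousLinearMap.smulRight_apply]
  abel

theorem dy_mul {F G : VV → A} {p : VV} (hF : DifferentiableAt ℂ F p)
    (hG : DifferentiableAt ℂ G p) (k : Fin 2) :
    dy k (fun q => F q * G q) p = dy k F p * G p + F p * dy k G p := by
  unfold dy; rw [fderiv_fun_mul' hF hG]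
  simp only [add_apply, smul_apply, smul_eq_mul, MulOpposite.smul_eq_mul_unop,
    MulOpposite.unop_op]
  abel

theorem dy_fst {φ : V2 → W} {p : VV} (h : DifferentiableAt ℂ φ p.1) (k : Fin 2) :
    dy k (fun q : VV => φ q.1) p = 0 := by
  have h2 : HasFDerivAt (fun y : VV => φ y.1)
      ((fderiv ℂ φ p.1).comp (ContinuousLinearMap.fst ℂ V2 V2)) p :=
    h.hasFDerivAt.comp p hasFDerivAt_fst
  unfold dy
  rw [h2.fderiv]
  simp

theorem dy_snd {φ : V2 → W} {p : VV} (h : DifferentiableAt ℂ φ p.2) (k : Fin 2) :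
    dy k (fun q : VV => φ q.2) p = fderiv ℂ φ p.2 (ee k) := by
  have h2 : HasFDerivAt (fun y : VV => φ y.2)
      ((fderiv ℂ φ p.2).comp (ContinuousLinearMap.snd ℂ V2 V2)) p :=
    h.hasFDerivAt.comp p hasFDerivAt_snd
  unfold dy
  rw [h2.fderiv]
  simp

/-- chain rule for `G(f(x), f(y))` -/
theorem dy_comp {G : VV → W} {f : V2 → V2} {p : VV} (hG : DifferentiableAt ℂ G (f p.1, f p.2))
    (h1 : DifferentiableAt ℂ f p.1) (h2 : DifferentiableAt ℂ f p.2) (k : Fin 2) :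
    dy k (fun q : VV => G (f q.1, f q.2)) p =
      fderiv ℂ f p.2 (ee k) 0 • dy 0 G (f p.1, f p.2) +
      fderiv ℂ f p.2 (ee k) 1 • dy 1 G (f p.1, f p.2) := by
  have e1 : HasFDerivAt (fun y : VV => f y.1)
      ((fderiv ℂ f p.1).comp (ContinuousLinearMap.fst ℂ V2 V2)) p :=
    h1.hasFDerivAt.comp p hasFDerivAt_fst
  have e2 : HasFDerivAt (fun y : VV => f y.2)
      ((fderiv ℂ f p.2).comp (ContinuousLinearMap.snd ℂ V2 V2)) p :=
    h2.hasFDerivAt.comp p hasFDerivAt_snd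
  have e3 : HasFDerivAt (fun q : VV => G (f q.1, f q.2)) _ p :=
    HasFDerivAt.comp (f := fun q : VV => (f q.1, f q.2)) p hG.hasFDerivAt (e1.prodMk e2)
  unfold dy
  rw [e3.fderiv]
  simp only [ContinuousLinearMap.comp_apply, ContinuousLinearMap.prod_apply,
    ContinuousLinearMap.coe_fst', ContinuousLinearMap.coe_snd', map_zero]
  exact fderiv_snd_eq G _ _

theorem dy_comm (hD : IsOpen D) {F : VV → W} (hF : ContDiffOn ℂ ∞ F D) {p : VV} (hp : p ∈ D)
    (k l : Fin 2) : dy k (dy l F) p = dy l (dy k F) p := by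
  have hc : ContDiffAt ℂ ∞ F p := hF.contDiffAt (hD.mem_nhds hp)
  have h2 : ContDiffAt ℂ ∞ (fderiv ℂ F) p := hc.fderiv_right (m := ∞) (by simp)
  have h3 : DifferentiableAt ℂ (fderiv ℂ F) p := h2.differentiableAt (by simp)
  have h4 : ∀ u v : VV, fderiv ℂ (fun y => fderiv ℂ F y u) p v =
      fderiv ℂ (fderiv ℂ F) p v u := by
    intro u v
    have := h3.hasFDerivAt.clm_apply (hasFDerivAt_const u p)
    rw [this.fderiv]
    simp
  have hsymm : IsSymmSndFDerivAt ℂ F p := hc.isSymmSndFDerivAt (by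
    rw [minSmoothness_of_isRCLikeNormedField]
    exact WithTop.coe_le_coe.2 (le_top : (2 : ℕ∞) ≤ ⊤))
  change fderiv ℂ (fun y => fderiv ℂ F y (0, ee l)) p (0, ee k) =
    fderiv ℂ (fun y => fderiv ℂ F y (0, ee k)) p (0, ee l)
  rw [h4, h4, hsymm.eq]

end calcu

/-! ### transitions -/

/-- a change of coordinates `f` together with a change of frame `e` (with inverse `ei`) -/
structure Tr (A : Type) where
  f : V2 → V2
  e : V2 → A
  ei : V2 → A

variable {A : Type} [NormedRing A] [NormedAlgebra ℂ A]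

namespace Tr

variable (T : Tr A)

/-- `f_i` as a function of `(x, y)` -/
def fi (i : Fin 2) (p : VV) : ℂ := T.f p.2 i

/-- `M_ik(x, y) = ∫₀¹ ∂f_i/∂y_k (x + t (y - x)) dt` -/
def M (i k : Fin 2) (p : VV) : ℂ := Io 0 (dy k (T.fi i)) p

/-- `det M` -/
def dM (p : VV) : ℂ := T.M 0 0 p * T.M 1 1 p - T.M 0 1 p * T.M 1 0 p

/-- `∂f_i/∂y_k` -/
def df (i k : Fin 2) (y : V2) : ℂ := fderiv ℂ T.f y (ee k) i

/-- `det Df` -/
def jac (y : V2) : ℂ := T.df 0 0 y * T.df 1 1 y - T.df 0 1 y * T.df 1 0 y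

/-- `j = det(M)⁻¹ det Df(y) e(x)⁻¹ e(y)` -/
def j (p : VV) : A := ((T.dM p)⁻¹ * T.jac p.2) • (T.ei p.1 * T.e p.2)

/-- `J_k = ∫₀¹ ∂j/∂y_k (x, x + t (y - x)) dt`, so that `j = 1 + ⟨J, y - x⟩` -/
def J (k : Fin 2) (p : VV) : A := Io 0 (dy k T.j) p

/-- the assumptions: `D` is star shaped, `f`, `e`, `e⁻¹` are holomorphic on `Ω ⊇ pr₂ D`,
`det M ≠ 0` on `D`. -/
structure On (T : Tr A) (D : Set VV) (Ω : Set V2) : Prop where
  star : StarD D
  isOpen : IsOpen Ω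
  snd_mem : ∀ p ∈ D, p.2 ∈ Ω
  hf : ContDiffOn ℂ ∞ T.f Ω
  he : ContDiffOn ℂ ∞ T.e Ω
  hei : ContDiffOn ℂ ∞ T.ei Ω
  e_ei : ∀ y ∈ Ω, T.e y * T.ei y = 1
  ei_e : ∀ y ∈ Ω, T.ei y * T.e y = 1
  dM_ne : ∀ p ∈ D, T.dM p ≠ 0

variable {T} {D : Set VV} {Ω : Set V2}

namespace On

variable (h : T.On D Ω)
include h

theorem oD : IsOpen D := h.star.isOpen

theorem fst_mem {p : VV} (hp : p ∈ D) : p.1 ∈ Ω := h.snd_mem _ (h.star.diag hp)

/-- holomorphic functions of `y` -/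
theorem comp_snd {W : Type} [NormedAddCommGroup W] [NormedSpace ℂ W] {φ : V2 → W}
    (hφ : ContDiffOn ℂ ∞ φ Ω) : ContDiffOn ℂ ∞ (fun p : VV => φ p.2) D :=
  hφ.comp contDiff_snd.contDiffOn fun p hp => h.snd_mem p hp

/-- holomorphic functions of `x` -/
theorem comp_fst {W : Type} [NormedAddCommGroup W] [NormedSpace ℂ W] {φ : V2 → W}
    (hφ : ContDiffOn ℂ ∞ φ Ω) : ContDiffOn ℂ ∞ (fun p : VV => φ p.1) D :=
  hφ.comp contDiff_fst.contDiffOn fun _ hp => h.fst_mem hp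

theorem hfi (i : Fin 2) : ContDiffOn ℂ ∞ (fun y => T.f y i) Ω :=
  (ContinuousLinearMap.proj (R := ℂ) (φ := fun _ : Fin 2 => ℂ) i).contDiff.comp_contDiffOn h.hf

theorem cfi (i : Fin 2) : ContDiffOn ℂ ∞ (T.fi i) D := h.comp_snd (h.hfi i)

theorem cdf (i k : Fin 2) : ContDiffOn ℂ ∞ (T.df i k) Ω :=
  (ContinuousLinearMap.proj (R := ℂ) (φ := fun _ : Fin 2 => ℂ) i).contDiff.comp_contDiffOn
    ((h.hf.fderiv_of_isOpen h.isOpen (m := ∞) (by simp)).clm_apply contDiffOn_const)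

theorem df_eq {y : V2} (hy : y ∈ Ω) (i k : Fin 2) :
    fderiv ℂ (fun y => T.f y i) y (ee k) = T.df i k y := by
  have h1 : HasFDerivAt (fun y => T.f y i)
      ((ContinuousLinearMap.proj (R := ℂ) (φ := fun _ : Fin 2 => ℂ) i).comp
        (fderiv ℂ T.f y)) y :=
    (ContinuousLinearMap.proj (R := ℂ) (φ := fun _ : Fin 2 => ℂ) i).hasFDerivAt.comp y
      (dAt h.isOpen h.hf hy).hasFDerivAt
  rw [h1.fderiv]
  rfl

theorem dy_fi {p : VV} (hp : p ∈ D) (i k : Fin 2) : dy k (T.fi i) p = T.df i k p.2 := by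
  have := dy_snd (φ := fun y => T.f y i) (p := p)
    (dAt h.isOpen (h.hfi i) (h.snd_mem p hp)) k
  rw [← h.df_eq (h.snd_mem p hp)]
  exact this

theorem cM (i k : Fin 2) : ContDiffOn ℂ ∞ (T.M i k) D :=
  Io_contDiffOn h.star (dy_contDiffOn h.oD (h.cfi i) k) 0

theorem cdM : ContDiffOn ℂ ∞ T.dM D :=
  ((h.cM 0 0).mul (h.cM 1 1)).sub ((h.cM 0 1).mul (h.cM 1 0))

theorem M_diag {x : V2} (hx : (x, x) ∈ D) (i k : Fin 2) : T.M i k (x, x) = T.df i k x := by
  rw [M, Io_diag, h.dy_fi hx]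
  simp

theorem dM_diag {x : V2} (hx : (x, x) ∈ D) : T.dM (x, x) = T.jac x := by
  simp only [dM, jac, h.M_diag hx]

/-- `f(y) - f(x) = M (y - x)` -/
theorem f_sub {p : VV} (hp : p ∈ D) (i : Fin 2) :
    T.f p.2 i - T.f p.1 i = (p.2 0 - p.1 0) * T.M i 0 p + (p.2 1 - p.1 1) * T.M i 1 p := by
  have := Io_ftc h.star (h.cfi i) hp
  simp only [fi, smul_eq_mul] at this
  rw [this]
  simp only [M]
  ring

/-- `f` is injective at distance zero: `f(x) ≠ f(y)` for `(x, y) ∈ D`, `x ≠ y` -/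
theorem f_ne {p : VV} (hp : p ∈ D) (hne : p.2 - p.1 ≠ 0) : T.f p.2 - T.f p.1 ≠ 0 := by
  intro h0
  apply hne
  have e0 := h.f_sub hp 0
  have e1 := h.f_sub hp 1
  have z0 : T.f p.2 0 - T.f p.1 0 = 0 := congrFun h0 0
  have z1 : T.f p.2 1 - T.f p.1 1 = 0 := congrFun h0 1
  rw [z0] at e0
  rw [z1] at e1
  have hd := h.dM_ne p hp
  have k0 : (p.2 0 - p.1 0) * T.dM p = 0 := by
    simp only [dM]
    linear_combination -(T.M 1 1 p) * e0 + T.M 0 1 p * e1
  have k1 : (p.2 1 - p.1 1) * T.dM p = 0 := by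
    simp only [dM]
    linear_combination (T.M 1 0 p) * e0 - T.M 0 0 p * e1
  funext i
  fin_cases i
  · exact (mul_eq_zero.1 k0).resolve_right hd
  · exact (mul_eq_zero.1 k1).resolve_right hd

theorem cj : ContDiffOn ℂ ∞ T.j D := by
  have h1 : ContDiffOn ℂ ∞ (fun p => (T.dM p)⁻¹) D := h.cdM.inv fun p hp => h.dM_ne p hp
  have hj : ContDiffOn ℂ ∞ T.jac Ω :=
    ((h.cdf 0 0).mul (h.cdf 1 1)).sub ((h.cdf 0 1).mul (h.cdf 1 0))
  exact (h1.mul (h.comp_snd hj)).smul ((h.comp_fst h.hei).mul (h.comp_snd h.he))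

theorem cjac : ContDiffOn ℂ ∞ T.jac Ω :=
  ((h.cdf 0 0).mul (h.cdf 1 1)).sub ((h.cdf 0 1).mul (h.cdf 1 0))

theorem j_diag {x : V2} (hx : (x, x) ∈ D) : T.j (x, x) = 1 := by
  have h1 := h.dM_ne _ hx
  rw [j, ← h.dM_diag hx, inv_mul_cancel₀ h1, one_smul]
  exact h.ei_e x (h.snd_mem _ hx)

theorem cJ (k : Fin 2) : ContDiffOn ℂ ∞ (T.J k) D :=
  Io_contDiffOn h.star (dy_contDiffOn h.oD h.cj k) 0

/-- `j = 1 + ⟨J, y - x⟩` -/
theorem j_eq [CompleteSpace A] {p : VV} (hp : p ∈ D) :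
    T.j p = 1 + ((p.2 0 - p.1 0) • T.J 0 p + (p.2 1 - p.1 1) • T.J 1 p) := by
  have := Io_ftc h.star h.cj hp
  rw [h.j_diag (h.star.diag hp)] at this
  exact this

/-- the rows of `M` are curl free -/
theorem dy_M_symm {p : VV} (hp : p ∈ D) (i k l : Fin 2) :
    dy l (T.M i k) p = dy k (T.M i l) p := by
  have e1 : dy l (T.M i k) p = Io 1 (dy l (dy k (T.fi i))) p :=
    dy_Io h.star (dy_contDiffOn h.oD (h.cfi i) k) 0 hp l
  have e2 : dy k (T.M i l) p = Io 1 (dy k (dy l (T.fi i))) p :=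
    dy_Io h.star (dy_contDiffOn h.oD (h.cfi i) l) 0 hp k
  rw [e1, e2]
  exact Io_congr h.star (fun q hq => dy_comm h.oD (h.cfi i) hq l k) 1 hp

/-- `J` is curl free -/
theorem dy_J_symm {p : VV} (hp : p ∈ D) (k l : Fin 2) :
    dy l (T.J k) p = dy k (T.J l) p := by
  have e1 : dy l (T.J k) p = Io 1 (dy l (dy k T.j)) p :=
    dy_Io h.star (dy_contDiffOn h.oD h.cj k) 0 hp l
  have e2 : dy k (T.J l) p = Io 1 (dy k (dy l T.j)) p :=
    dy_Io h.star (dy_contDiffOn h.oD h.cj l) 0 hp k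
  rw [e1, e2]
  exact Io_congr h.star (fun q hq => dy_comm h.oD h.cj hq l k) 1 hp

end On

end Tr

end

end Vale.Agent.P267.H433
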