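import Vale.Agent.P267.H433.Ker

/-!
# P267 / H433 (RRC-LOC): the composition law of the kernels `C`

For two transitions `T` (first) and `S` (second): off the diagonal
`C_T(x,y) + det Df(y) e(x)⁻¹ C_S(f x, f y) e(y) - C_{ST}(x,y) = - r(x,y)` with `r` holomorphic on
the whole of `D`, also on the diagonal (`CompOn.comp_law`, `CompOn.cr`).
-/

set_option linter.unusedSectionVars false

namespace Vale.Agent.P267.H433

open scoped ContDiff Topology ComplexConjugate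
open Set Filter MeasureTheory

noncomputable section

variable {A : Type} [NormedRing A] [NormedAlgebra ℂ A]

namespace Tr

variable (S T : Tr A)

/-- first `T`, then `S` -/
def comp : Tr A where
  f := fun x => S.f (T.f x)
  e := fun x => S.e (T.f x) * T.e x
  ei := fun x => T.ei x * S.ei (T.f x)

/-- `(f(x), f(y))` -/
def Ph (p : VV) : VV := (T.f p.1, T.f p.2)

/-- `e(x)⁻¹ J_{S,i}(f x, f y) e(x)` -/
def X (i : Fin 2) (p : VV) : A := T.ei p.1 * S.J i (T.Ph p) * T.e p.1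

/-- `B_k = ∑ M_ik X_i` -/
def B (k : Fin 2) (p : VV) : A := T.M 0 k p • S.X T 0 p + T.M 1 k p • S.X T 1 p

/-- `Q = N M` -/
def Q (i k : Fin 2) (p : VV) : ℂ :=
  S.M i 0 (T.Ph p) * T.M 0 k p + S.M i 1 (T.Ph p) * T.M 1 k p

/-- `det Q` -/
def dQ (p : VV) : ℂ := S.dM (T.Ph p) * T.dM p

/-- `P - Q` -/
def E (i k : Fin 2) (p : VV) : ℂ := (S.comp T).M i k p - S.Q T i k p

/-- `P - Q = n ⊗ s^⊥` -/
def n (i : Fin 2) (p : VV) : ℂ := Io 1 (fun q => dy 0 (S.E T i 1) q - dy 1 (S.E T i 0) q) p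

/-- `ν = Q⁻¹ n` -/
def nu0 (p : VV) : ℂ := (S.dQ T p)⁻¹ * (S.Q T 1 1 p * S.n T 0 p - S.Q T 0 1 p * S.n T 1 p)

/-- `ν = Q⁻¹ n` -/
def nu1 (p : VV) : ℂ := (S.dQ T p)⁻¹ * (S.Q T 0 0 p * S.n T 1 p - S.Q T 1 0 p * S.n T 0 p)

/-- `⟨J_T, s⟩` -/
def Js (p : VV) : A := (p.2 0 - p.1 0) • T.J 0 p + (p.2 1 - p.1 1) • T.J 1 p

def R0 (p : VV) : A :=
  T.J 0 p + S.B T 0 p - (S.comp T).J 0 p - S.nu1 T p • (1 : A) + S.B T 0 p * T.Js p -
    S.nu1 T p • (S.comp T).Js p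

def R1 (p : VV) : A :=
  T.J 1 p + S.B T 1 p - (S.comp T).J 1 p + S.nu0 T p • (1 : A) + S.B T 1 p * T.Js p +
    S.nu0 T p • (S.comp T).Js p

/-- the holomorphic function `r` -/
def r (p : VV) : A := Io 1 (fun q => dy 0 (S.R1 T) q - dy 1 (S.R0 T) q) p

/-- the assumptions -/
structure CompOn (S T : Tr A) (D D' : Set VV) (Ω Ω' : Set V2) : Prop where
  hT : T.On D Ω
  hS : S.On D' Ω'
  hC : (S.comp T).On D Ω
  maps : ∀ p ∈ D, T.Ph p ∈ D'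
  maps' : ∀ y ∈ Ω, T.f y ∈ Ω'

variable {S T} {D D' : Set VV} {Ω Ω' : Set V2}

/-- a constructor with fewer fields -/
theorem CompOn.mk' (hT : T.On D Ω) (hS : S.On D' Ω') (maps : ∀ p ∈ D, T.Ph p ∈ D')
    (maps' : ∀ y ∈ Ω, T.f y ∈ Ω') (hd : ∀ p ∈ D, (S.comp T).dM p ≠ 0) :
    CompOn S T D D' Ω Ω' := by
  refine ⟨hT, hS, ⟨hT.star, hT.isOpen, hT.snd_mem, ?_, ?_, ?_, ?_, ?_, hd⟩, maps, maps'⟩
  · exact hS.hf.comp hT.hf maps'
  · exact (hS.he.comp hT.hf maps').mul hT.he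
  · exact hT.hei.mul (hS.hei.comp hT.hf maps')
  · intro y hy
    change (S.e (T.f y) * T.e y) * (T.ei y * S.ei (T.f y)) = 1
    rw [mul_assoc, ← mul_assoc (T.e y), hT.e_ei y hy, one_mul, hS.e_ei _ (maps' y hy)]
  · intro y hy
    change (T.ei y * S.ei (T.f y)) * (S.e (T.f y) * T.e y) = 1
    rw [mul_assoc, ← mul_assoc (S.ei (T.f y)), hS.ei_e _ (maps' y hy), one_mul, hT.ei_e y hy]

namespace CompOn

variable (h : CompOn S T D D' Ω Ω')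
include h

theorem cPh : ContDiffOn ℂ ∞ T.Ph D := (h.hT.comp_fst h.hT.hf).prodMk (h.hT.comp_snd h.hT.hf)

/-- functions of `(f x, f y)` -/
theorem cG {W : Type} [NormedAddCommGroup W] [NormedSpace ℂ W] {G : VV → W}
    (hG : ContDiffOn ℂ ∞ G D') : ContDiffOn ℂ ∞ (fun p => G (T.Ph p)) D :=
  hG.comp h.cPh h.maps

theorem cX (i : Fin 2) : ContDiffOn ℂ ∞ (S.X T i) D :=
  ((h.hT.comp_fst h.hT.hei).mul (h.cG (h.hS.cJ i))).mul (h.hT.comp_fst h.hT.he)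

theorem cB (k : Fin 2) : ContDiffOn ℂ ∞ (S.B T k) D :=
  ((h.hT.cM 0 k).smul (h.cX 0)).add ((h.hT.cM 1 k).smul (h.cX 1))

theorem cQ (i k : Fin 2) : ContDiffOn ℂ ∞ (S.Q T i k) D :=
  ((h.cG (h.hS.cM i 0)).mul (h.hT.cM 0 k)).add ((h.cG (h.hS.cM i 1)).mul (h.hT.cM 1 k))

theorem cdQ : ContDiffOn ℂ ∞ (S.dQ T) D := (h.cG h.hS.cdM).mul h.hT.cdM

theorem dQ_ne {p : VV} (hp : p ∈ D) : S.dQ T p ≠ 0 :=
  mul_ne_zero (h.hS.dM_ne _ (h.maps p hp)) (h.hT.dM_ne p hp)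

theorem dQ_eq (p : VV) :
    S.dQ T p = S.Q T 0 0 p * S.Q T 1 1 p - S.Q T 0 1 p * S.Q T 1 0 p := by
  simp only [dQ, Q, dM]
  ring

theorem cE (i k : Fin 2) : ContDiffOn ℂ ∞ (S.E T i k) D := (h.hC.cM i k).sub (h.cQ i k)

theorem cn (i : Fin 2) : ContDiffOn ℂ ∞ (S.n T i) D :=
  Io_contDiffOn h.hT.star ((dy_contDiffOn h.hT.oD (h.cE i 1) 0).sub
    (dy_contDiffOn h.hT.oD (h.cE i 0) 1)) 1

theorem cnu0 : ContDiffOn ℂ ∞ (S.nu0 T) D :=
  (h.cdQ.inv fun _ hp => h.dQ_ne hp).mul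
    (((h.cQ 1 1).mul (h.cn 0)).sub ((h.cQ 0 1).mul (h.cn 1)))

theorem cnu1 : ContDiffOn ℂ ∞ (S.nu1 T) D :=
  (h.cdQ.inv fun _ hp => h.dQ_ne hp).mul
    (((h.cQ 0 0).mul (h.cn 1)).sub ((h.cQ 1 0).mul (h.cn 0)))

end CompOn

theorem cs {D : Set VV} (i : Fin 2) : ContDiffOn ℂ ∞ (fun p : VV => p.2 i - p.1 i) D :=
  ContDiff.contDiffOn (by fun_prop)

theorem On.cJs {T : Tr A} {D : Set VV} {Ω : Set V2} (h : T.On D Ω) :
    ContDiffOn ℂ ∞ T.Js D :=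
  ((cs 0).smul (h.cJ 0)).add ((cs 1).smul (h.cJ 1))

namespace CompOn

variable (h : CompOn S T D D' Ω Ω')
include h

theorem cR0 : ContDiffOn ℂ ∞ (S.R0 T) D :=
  (((((h.hT.cJ 0).add (h.cB 0)).sub (h.hC.cJ 0)).sub (h.cnu1.smul contDiffOn_const)).add
    ((h.cB 0).mul h.hT.cJs)).sub (h.cnu1.smul h.hC.cJs)

theorem cR1 : ContDiffOn ℂ ∞ (S.R1 T) D :=
  (((((h.hT.cJ 1).add (h.cB 1)).sub (h.hC.cJ 1)).add (h.cnu0.smul contDiffOn_const)).add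
    ((h.cB 1).mul h.hT.cJs)).add (h.cnu0.smul h.hC.cJs)

/-- `r` is holomorphic on `D` -/
theorem cr : ContDiffOn ℂ ∞ (S.r T) D :=
  Io_contDiffOn h.hT.star ((dy_contDiffOn h.hT.oD h.cR1 0).sub
    (dy_contDiffOn h.hT.oD h.cR0 1)) 1

/-! #### algebra -/

theorem f_sub' {p : VV} (hp : p ∈ D) (i : Fin 2) :
    S.f (T.f p.2) i - S.f (T.f p.1) i =
      (p.2 0 - p.1 0) * S.Q T i 0 p + (p.2 1 - p.1 1) * S.Q T i 1 p := by
  have e := h.hS.f_sub (h.maps p hp) i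
  have e0 := h.hT.f_sub hp 0
  have e1 := h.hT.f_sub hp 1
  simp only [Ph] at e
  rw [e, e0, e1]
  simp only [Q, Ph]
  ring

/-- `(P - Q) s = 0` -/
theorem rel_E {p : VV} (hp : p ∈ D) (i : Fin 2) :
    (p.2 0 - p.1 0) • S.E T i 0 p + (p.2 1 - p.1 1) • S.E T i 1 p = 0 := by
  have e1 := h.f_sub' hp i
  have e2 := h.hC.f_sub hp i
  have e3 : S.f (T.f p.2) i - S.f (T.f p.1) i = (p.2 0 - p.1 0) * (S.comp T).M i 0 p +
      (p.2 1 - p.1 1) * (S.comp T).M i 1 p := e2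
  simp only [E, smul_eq_mul]
  linear_combination e1 - e3

theorem E_eq {p : VV} (hp : p ∈ D) (i : Fin 2) :
    S.E T i 0 p = - ((p.2 1 - p.1 1) * S.n T i p) ∧ S.E T i 1 p = (p.2 0 - p.1 0) * S.n T i p :=
  Io_kos h.hT.star (h.cE i 0) (h.cE i 1) (fun _ hq => h.rel_E hq i) hp

theorem n_eq {p : VV} (hp : p ∈ D) :
    S.n T 0 p = S.Q T 0 0 p * S.nu0 T p + S.Q T 0 1 p * S.nu1 T p ∧
    S.n T 1 p = S.Q T 1 0 p * S.nu0 T p + S.Q T 1 1 p * S.nu1 T p := by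
  have hd : S.dQ T p * (S.dQ T p)⁻¹ = 1 := mul_inv_cancel₀ (h.dQ_ne hp)
  have hq := h.dQ_eq p
  simp only [nu0, nu1]
  constructor
  · linear_combination (-(S.n T 0 p)) * hd + (S.n T 0 p * (S.dQ T p)⁻¹) * hq
  · linear_combination (-(S.n T 1 p)) * hd + (S.n T 1 p * (S.dQ T p)⁻¹) * hq

/-- chain rule -/
theorem df_comp {y : V2} (hy : y ∈ Ω) (i k : Fin 2) :
    (S.comp T).df i k y = S.df i 0 (T.f y) * T.df 0 k y + S.df i 1 (T.f y) * T.df 1 k y := by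
  have d1 := (dAt h.hT.isOpen h.hT.hf hy).hasFDerivAt
  have d2 := (dAt h.hS.isOpen h.hS.hf (h.maps' y hy)).hasFDerivAt
  have d3 : HasFDerivAt (S.comp T).f ((fderiv ℂ S.f (T.f y)).comp (fderiv ℂ T.f y)) y :=
    d2.comp y d1
  simp only [df]
  rw [d3.fderiv, ContinuousLinearMap.comp_apply]
  conv_lhs => rw [eq_ee (fderiv ℂ T.f y (ee k))]
  rw [map_add, map_smul, map_smul]
  simp only [Pi.add_apply, Pi.smul_apply, smul_eq_mul]
  ring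

theorem jac_comp {y : V2} (hy : y ∈ Ω) :
    (S.comp T).jac y = S.jac (T.f y) * T.jac y := by
  simp only [jac, h.df_comp hy]
  ring

/-- `det P = det Q (1 + ⟨ν#, s⟩)` -/
theorem dM_comp {p : VV} (hp : p ∈ D) :
    (S.comp T).dM p = S.dQ T p *
      (1 + ((p.2 0 - p.1 0) * S.nu1 T p - (p.2 1 - p.1 1) * S.nu0 T p)) := by
  have e0 := h.E_eq hp 0
  have e1 := h.E_eq hp 1
  have en := h.n_eq hp
  have hq := h.dQ_eq p
  simp only [E] at e0 e1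
  have p00 : (S.comp T).M 0 0 p = S.Q T 0 0 p - (p.2 1 - p.1 1) * S.n T 0 p := by
    linear_combination e0.1
  have p01 : (S.comp T).M 0 1 p = S.Q T 0 1 p + (p.2 0 - p.1 0) * S.n T 0 p := by
    linear_combination e0.2
  have p10 : (S.comp T).M 1 0 p = S.Q T 1 0 p - (p.2 1 - p.1 1) * S.n T 1 p := by
    linear_combination e1.1
  have p11 : (S.comp T).M 1 1 p = S.Q T 1 1 p + (p.2 0 - p.1 0) * S.n T 1 p := by
    linear_combination e1.2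
  simp only [dM]
  rw [p00, p01, p10, p11, en.1, en.2, hq]
  ring

/-- `e⁻¹ j_S e j_T = (1 + ⟨ν#, s⟩) j_{ST}` -/
theorem j_comp {p : VV} (hp : p ∈ D) :
    (T.ei p.1 * S.j (T.Ph p) * T.e p.1) * T.j p =
      (1 + ((p.2 0 - p.1 0) * S.nu1 T p - (p.2 1 - p.1 1) * S.nu0 T p)) • (S.comp T).j p := by
  have h1 := h.hT.e_ei p.1 (h.hT.fst_mem hp)
  have e1 : (T.ei p.1 * S.j (T.Ph p) * T.e p.1) * T.j p =
      (((S.dM (T.Ph p))⁻¹ * S.jac (T.f p.2)) * ((T.dM p)⁻¹ * T.jac p.2)) •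
        (T.ei p.1 * S.ei (T.f p.1) * (S.e (T.f p.2) * T.e p.2)) := by
    simp only [j, Ph, mul_smul_comm, smul_mul_assoc, smul_smul]
    congr 1
    · ring
    · calc T.ei p.1 * (S.ei (T.f p.1) * S.e (T.f p.2)) * T.e p.1 * (T.ei p.1 * T.e p.2)
          = T.ei p.1 * S.ei (T.f p.1) * (S.e (T.f p.2) * ((T.e p.1 * T.ei p.1) * T.e p.2)) := by
            noncomm_ring
        _ = _ := by rw [h1, one_mul]
  have hd := h.dM_comp hp
  have hne := h.hC.dM_ne p hp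
  have hq := h.dQ_ne hp
  have d1 := h.hT.dM_ne p hp
  have d2 := h.hS.dM_ne _ (h.maps p hp)
  have hj := h.jac_comp (h.hT.snd_mem p hp)
  rw [e1]
  have e2 : (S.comp T).j p = (((S.comp T).dM p)⁻¹ * (S.comp T).jac p.2) •
      (T.ei p.1 * S.ei (T.f p.1) * (S.e (T.f p.2) * T.e p.2)) := rfl
  rw [e2, smul_smul, hj]
  congr 1
  set t := 1 + ((p.2 0 - p.1 0) * S.nu1 T p - (p.2 1 - p.1 1) * S.nu0 T p)
  have ht : t ≠ 0 := by
    intro h0
    apply hne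
    rw [hd, h0, mul_zero]
  rw [hd]
  simp only [dQ]
  field_simp

/-- `e⁻¹ j_S e = 1 + ⟨B, s⟩` -/
theorem jS_eq [CompleteSpace A] {p : VV} (hp : p ∈ D) :
    T.ei p.1 * S.j (T.Ph p) * T.e p.1 =
      1 + ((p.2 0 - p.1 0) • S.B T 0 p + (p.2 1 - p.1 1) • S.B T 1 p) := by
  have h1 := h.hT.ei_e p.1 (h.hT.fst_mem hp)
  have e := h.hS.j_eq (h.maps p hp)
  have e0 := h.hT.f_sub hp 0
  have e1 := h.hT.f_sub hp 1
  rw [e]
  have s0 : (T.Ph p).2 0 - (T.Ph p).1 0 = T.f p.2 0 - T.f p.1 0 := rfl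
  have s1 : (T.Ph p).2 1 - (T.Ph p).1 1 = T.f p.2 1 - T.f p.1 1 := rfl
  rw [s0, s1, e0, e1]
  simp only [mul_add, add_mul, mul_one, h1, mul_smul_comm, smul_mul_assoc, B, X]
  module

/-- `⟨R, s⟩ = 0` -/
theorem rel_R [CompleteSpace A] {p : VV} (hp : p ∈ D) :
    (p.2 0 - p.1 0) • S.R0 T p + (p.2 1 - p.1 1) • S.R1 T p = 0 := by
  have e1 := h.j_comp hp
  rw [h.jS_eq hp, h.hT.j_eq hp, h.hC.j_eq hp] at e1
  have e2 : (p.2 0 - p.1 0) • S.R0 T p + (p.2 1 - p.1 1) • S.R1 T p =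
      (1 + ((p.2 0 - p.1 0) • S.B T 0 p + (p.2 1 - p.1 1) • S.B T 1 p)) * (1 + T.Js p) -
      (1 + ((p.2 0 - p.1 0) * S.nu1 T p - (p.2 1 - p.1 1) * S.nu0 T p)) •
        (1 + (S.comp T).Js p) := by
    simp only [R0, R1, add_mul, mul_add, one_mul, mul_one, smul_mul_assoc]
    simp only [Js]
    module
  rw [e2, sub_eq_zero]
  exact e1

theorem R_eq [CompleteSpace A] {p : VV} (hp : p ∈ D) :
    S.R0 T p = - ((p.2 1 - p.1 1) • S.r T p) ∧ S.R1 T p = (p.2 0 - p.1 0) • S.r T p :=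
  Io_kos h.hT.star h.cR0 h.cR1 (fun _ hq => h.rel_R hq) hp

/-- **(L3)** the composition law -/
theorem comp_law [CompleteSpace A] {p : VV} (hp : p ∈ D) (hne : p.2 - p.1 ≠ 0) :
    T.C p + T.jac p.2 • (T.ei p.1 * S.C (T.Ph p) * T.e p.2) - (S.comp T).C p = - S.r T p := by
  have h1 := h.hT.e_ei p.1 (h.hT.fst_mem hp)
  have h1' := h.hT.ei_e p.1 (h.hT.fst_mem hp)
  have hd1 := h.hT.dM_ne p hp
  have hR := h.R_eq hp
  have hj := h.hT.j_eq hp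
  have en := h.n_eq hp
  have eE0 := h.E_eq hp 0
  have eE1 := h.E_eq hp 1
  have ob := h.hT.b_dot hp hne
  have ou := uu_dot hne
  have obc := h.hC.b_dot hp hne
  -- the middle term
  have m1 : T.jac p.2 • (T.ei p.1 * S.C (T.Ph p) * T.e p.2) =
      (T.dM p • (T.ei p.1 * S.C (T.Ph p) * T.e p.1)) * T.j p := by
    rw [j, mul_smul_comm, smul_mul_assoc, smul_smul]
    congr 1
    · field_simp
    · calc T.ei p.1 * S.C (T.Ph p) * T.e p.2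
          = T.ei p.1 * S.C (T.Ph p) * ((T.e p.1 * T.ei p.1) * T.e p.2) := by rw [h1, one_mul]
        _ = _ := by noncomm_ring
  set w0 := S.b 0 (T.Ph p) with hw0
  set w1 := S.b 1 (T.Ph p) with hw1
  have m2 : T.ei p.1 * S.C (T.Ph p) * T.e p.1 =
      w1 • (uu (T.f p.2 - T.f p.1) 0 • (1 : A) + S.X T 0 p) -
      w0 • (uu (T.f p.2 - T.f p.1) 1 • (1 : A) + S.X T 1 p) := by
    have : S.C (T.Ph p) = w1 • (uu (T.f p.2 - T.f p.1) 0 • (1 : A) + S.J 0 (T.Ph p)) -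
      w0 • (uu (T.f p.2 - T.f p.1) 1 • (1 : A) + S.J 1 (T.Ph p)) := rfl
    rw [this]
    simp only [mul_sub, sub_mul, mul_add, add_mul, mul_smul_comm, smul_mul_assoc, mul_one, h1', X]
  set c0 := T.M 0 0 p * w0 + T.M 1 0 p * w1 with hc0
  set c1 := T.M 0 1 p * w0 + T.M 1 1 p * w1 with hc1
  have m3 : T.dM p • (T.ei p.1 * S.C (T.Ph p) * T.e p.1) =
      c1 • (T.b 0 p • (1 : A) + S.B T 0 p) - c0 • (T.b 1 p • (1 : A) + S.B T 1 p) := by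
    rw [m2, hc0, hc1]
    simp only [b, B, dM]
    module
  -- `b_{ST}`
  set U0 := uu ((S.comp T).f p.2 - (S.comp T).f p.1) 0 with hU0
  set U1 := uu ((S.comp T).f p.2 - (S.comp T).f p.1) 1 with hU1
  have ew0 : w0 = S.M 0 0 (T.Ph p) * U0 + S.M 1 0 (T.Ph p) * U1 := rfl
  have ew1 : w1 = S.M 0 1 (T.Ph p) * U0 + S.M 1 1 (T.Ph p) * U1 := rfl
  have ec0 : c0 = S.Q T 0 0 p * U0 + S.Q T 1 0 p * U1 := by
    rw [hc0, ew0, ew1]; simp only [Q]; ring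
  have ec1 : c1 = S.Q T 0 1 p * U0 + S.Q T 1 1 p * U1 := by
    rw [hc1, ew0, ew1]; simp only [Q]; ring
  set m := S.nu0 T p * c0 + S.nu1 T p * c1 with hm
  have em : S.n T 0 p * U0 + S.n T 1 p * U1 = m := by
    rw [en.1, en.2, hm, ec0, ec1]; ring
  simp only [E] at eE0 eE1
  have eb0 : (S.comp T).b 0 p = c0 - (p.2 1 - p.1 1) * m := by
    have : (S.comp T).b 0 p = (S.comp T).M 0 0 p * U0 + (S.comp T).M 1 0 p * U1 := rfl
    rw [this, ec0, ← em]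
    linear_combination U0 * eE0.1 + U1 * eE1.1
  have eb1 : (S.comp T).b 1 p = c1 + (p.2 0 - p.1 0) * m := by
    have : (S.comp T).b 1 p = (S.comp T).M 0 1 p * U0 + (S.comp T).M 1 1 p * U1 := rfl
    rw [this, ec1, ← em]
    linear_combination U0 * eE0.2 + U1 * eE1.2
  rw [eb0, eb1] at obc
  simp only [Pi.sub_apply] at ou
  -- `⟨c, s⟩ = 1`
  have oc : (p.2 0 - p.1 0) * c0 + (p.2 1 - p.1 1) * c1 = 1 := by
    linear_combination obc
  have eC : (S.comp T).C p =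
      (c1 + (p.2 0 - p.1 0) * m) • (uu (p.2 - p.1) 0 • (1 : A) + (S.comp T).J 0 p) -
      (c0 - (p.2 1 - p.1 1) * m) • (uu (p.2 - p.1) 1 • (1 : A) + (S.comp T).J 1 p) := by
    rw [← eb0, ← eb1]; rfl
  have eT : T.C p = T.b 1 p • (uu (p.2 - p.1) 0 • (1 : A) + T.J 0 p) -
      T.b 0 p • (uu (p.2 - p.1) 1 • (1 : A) + T.J 1 p) := rfl
  -- the right hand side
  have er : - S.r T p = c1 • S.R0 T p - c0 • S.R1 T p := by
    rw [hR.1, hR.2]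
    have : c1 • -((p.2 1 - p.1 1) • S.r T p) - c0 • ((p.2 0 - p.1 0) • S.r T p) =
      -(((p.2 0 - p.1 0) * c0 + (p.2 1 - p.1 1) * c1) • S.r T p) := by module
    rw [this, oc, one_smul]
  obtain ⟨l, hb0, hb1⟩ : ∃ l : ℂ, T.b 0 p = c0 - l * (p.2 1 - p.1 1) ∧
      T.b 1 p = c1 + l * (p.2 0 - p.1 0) := by
    refine ⟨T.b 1 p * c0 - T.b 0 p * c1, ?_, ?_⟩
    · linear_combination (-(T.b 0 p)) * oc + c0 * ob
    · linear_combination (-(T.b 1 p)) * oc + c1 * ob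
  rw [er, m1, m3, eC, eT, hj, hb0, hb1]
  simp only [R0, R1, Js]
  set s0 := p.2 0 - p.1 0
  set s1 := p.2 1 - p.1 1
  set x0 := uu (p.2 - p.1) 0
  set x1 := uu (p.2 - p.1) 1
  simp only [mul_add, add_mul, sub_mul, mul_one, one_mul, smul_mul_assoc, mul_smul_comm]
  rw [hm]
  match_scalars
  all_goals first
    | ring1
    | linear_combination (-(l * s0)) * oc
    | linear_combination (l * s1) * oc
    | linear_combination (l * s0) * oc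
    | linear_combination (-(l * s1)) * oc
    | linear_combination (l - (S.nu0 T p * c0 + S.nu1 T p * c1)) * ou - l * oc

end CompOn

end Tr

end

end Vale.Agent.P267.H433
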