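import Vale.Agent.P267.H734.ParInt

/-!
# P267 / H433 (RRC-LOC): integrals along the segments from `x` to `y`

`V2 = ℂ²`. For `F` holomorphic on a star shaped neighbourhood `D` of the diagonal of `V2 × V2`
we study `Io j F (x, y) = ∫₀¹ t^j F (x, x + t (y - x)) dt` and the derivative `dy k` in `y_k`.
-/

set_option linter.unusedSectionVars false

namespace Vale.Agent.P267.H433

open scoped ContDiff Topology
open Set Filter MeasureTheory
open Vale.Agent.P267.H734 (exists_bound_near intervalIntegrable_section continuousAt_integral)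

noncomputable section

section pint

variable {E : Type} [NormedAddCommGroup E] [NormedSpace ℂ E]

/-- `φ ↦ A ∘ φ ∘ L` -/
def conjL {W W' : Type} [NormedAddCommGroup W] [NormedSpace ℂ W] [NormedAddCommGroup W']
    [NormedSpace ℂ W'] (A : W →L[ℂ] W') (L : E →L[ℂ] E) : (E →L[ℂ] W) →L[ℂ] (E →L[ℂ] W') :=
  (ContinuousLinearMap.compL ℂ E W W' A).comp ((ContinuousLinearMap.compL ℂ E E W).flip L)

theorem conjL_apply {W W' : Type} [NormedAddCommGroup W] [NormedSpace ℂ W]
    [NormedAddCommGroup W'] [NormedSpace ℂ W'] (A : W →L[ℂ] W') (L : E →L[ℂ] E)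
    (φ : E →L[ℂ] W) : conjL A L φ = A.comp (φ.comp L) := rfl

theorem continuous_conjL {W W' : Type} [NormedAddCommGroup W] [NormedSpace ℂ W]
    [NormedAddCommGroup W'] [NormedSpace ℂ W'] {A : ℝ → (W →L[ℂ] W')} {L : ℝ → (E →L[ℂ] E)}
    (hA : Continuous A) (hL : Continuous L) : Continuous fun t => conjL (A t) (L t) := by
  unfold conjL
  exact ((ContinuousLinearMap.compL ℂ E W W').continuous.comp hA).clm_comp
    ((ContinuousLinearMap.compL ℂ E E W).flip.continuous.comp hL)

variable {D : Set E} {L : ℝ → (E →L[ℂ] E)}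
  {W W' : Type} [NormedAddCommGroup W] [NormedSpace ℂ W] [NormedAddCommGroup W']
  [NormedSpace ℂ W'] {A : ℝ → (W →L[ℂ] W')} {F : E → W}

theorem isOpen_pdom (hD : IsOpen D) (hL : Continuous L) :
    IsOpen {z : E × ℝ | L z.2 z.1 ∈ D} := by
  refine hD.preimage ?_
  exact (hL.comp continuous_snd).clm_apply continuous_fst

theorem continuousOn_pint (hL : Continuous L) (hA : Continuous A) (hF : ContinuousOn F D) :
    ContinuousOn (fun z : E × ℝ => A z.2 (F (L z.2 z.1))) {z : E × ℝ | L z.2 z.1 ∈ D} := by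
  have h1 : ContinuousOn (fun z : E × ℝ => F (L z.2 z.1)) {z : E × ℝ | L z.2 z.1 ∈ D} :=
    hF.comp ((hL.comp continuous_snd).clm_apply continuous_fst).continuousOn fun z hz => hz
  exact (hA.comp continuous_snd).continuousOn.clm_apply h1

/-- differentiation under the integral sign, over `ℂ` -/
theorem hasFDerivAt_pint (hD : IsOpen D) (hL : Continuous L) (hA : Continuous A)
    (hF : ContDiffOn ℂ 1 F D) {p : E} (hp : ∀ t ∈ Icc (0 : ℝ) 1, L t p ∈ D) :
    HasFDerivAt (fun p => ∫ t in (0 : ℝ)..1, A t (F (L t p)))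
      (∫ t in (0 : ℝ)..1, conjL (A t) (L t) (fderiv ℂ F (L t p))) p := by
  have hc : ContinuousOn (fun z : E × ℝ => A z.2 (F (L z.2 z.1))) {z : E × ℝ | L z.2 z.1 ∈ D} :=
    continuousOn_pint hL hA hF.continuousOn
  have hc' : ContinuousOn (fun z : E × ℝ => conjL (A z.2) (L z.2) (fderiv ℂ F (L z.2 z.1)))
      {z : E × ℝ | L z.2 z.1 ∈ D} :=
    continuousOn_pint hL (continuous_conjL hA hL) (hF.continuousOn_fderiv_of_isOpen hD le_rfl)
  have hW := isOpen_pdom (D := D) hD hL
  obtain ⟨C, hC⟩ := exists_bound_near hW hc' hp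
  obtain ⟨s, hs, hsC⟩ := Filter.eventually_iff_exists_mem.1 hC
  refine (intervalIntegral.hasFDerivAt_integral_of_dominated_of_fderiv_le (𝕜 := ℂ)
    (bound := fun _ => C) (F' := fun q t => conjL (A t) (L t) (fderiv ℂ F (L t q)))
    hs ?_ ?_ ?_ ?_ ?_ ?_)
  · filter_upwards [hC] with q hq
    have := intervalIntegrable_section hc (p := q) fun t ht => (hq t ht).1
    have h2 := this.aestronglyMeasurable
    rwa [uIoc_of_le zero_le_one]
  · exact intervalIntegrable_section hc hp
  · have := intervalIntegrable_section hc' hp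
    have h2 := this.aestronglyMeasurable
    rwa [uIoc_of_le zero_le_one]
  · refine Eventually.of_forall fun t ht q hq => ?_
    rw [uIoc_of_le zero_le_one] at ht
    exact (hsC q hq t ⟨ht.1.le, ht.2⟩).2
  · exact intervalIntegrable_const
  · refine Eventually.of_forall fun t ht q hq => ?_
    rw [uIoc_of_le zero_le_one] at ht
    have hqt : L t q ∈ D := (hsC q hq t ⟨ht.1.le, ht.2⟩).1
    have h1 : HasFDerivAt F (fderiv ℂ F (L t q)) (L t q) :=
      ((hF.contDiffAt (hD.mem_nhds hqt)).differentiableAt one_ne_zero).hasFDerivAt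
    rw [conjL_apply]
    exact (A t).hasFDerivAt.comp q (h1.comp q (L t).hasFDerivAt)

theorem contDiffOn_pint_nat (hD : IsOpen D) (hL : Continuous L)
    (hLD : ∀ p ∈ D, ∀ t ∈ Icc (0 : ℝ) 1, L t p ∈ D) (n : ℕ) :
    ∀ {W W' : Type} [NormedAddCommGroup W] [NormedSpace ℂ W] [NormedAddCommGroup W']
      [NormedSpace ℂ W'] {A : ℝ → (W →L[ℂ] W')} {F : E → W}, Continuous A →
      ContDiffOn ℂ n F D → ContDiffOn ℂ n (fun p => ∫ t in (0 : ℝ)..1, A t (F (L t p))) D := by
  induction n with
  | zero =>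
    intro W W' _ _ _ _ A F hA hF
    simp only [CharP.cast_eq_zero, contDiffOn_zero] at hF ⊢
    exact fun p hp => (continuousAt_integral (isOpen_pdom hD hL) (continuousOn_pint hL hA hF)
      (hLD p hp)).continuousWithinAt
  | succ n ih =>
    intro W W' _ _ _ _ A F hA hF
    have hF1 : ContDiffOn ℂ 1 F D := hF.of_le (by norm_cast; omega)
    have hcast : ((n + 1 : ℕ) : WithTop ℕ∞) = (n : WithTop ℕ∞) + 1 := by norm_cast
    rw [hcast, contDiffOn_succ_iff_fderiv_of_isOpen hD]
    refine ⟨fun p hp => (hasFDerivAt_pint hD hL hA hF1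
      (hLD p hp)).differentiableAt.differentiableWithinAt, by simp, ?_⟩
    have h2 : ContDiffOn ℂ n (fderiv ℂ F) D := hF.fderiv_of_isOpen hD (by norm_cast)
    refine (ih (continuous_conjL hA hL) h2).congr fun p hp => ?_
    exact (hasFDerivAt_pint hD hL hA hF1 (hLD p hp)).fderiv

theorem contDiffOn_pint (hD : IsOpen D) (hL : Continuous L)
    (hLD : ∀ p ∈ D, ∀ t ∈ Icc (0 : ℝ) 1, L t p ∈ D) (hA : Continuous A)
    (hF : ContDiffOn ℂ ∞ F D) : ContDiffOn ℂ ∞ (fun p => ∫ t in (0 : ℝ)..1, A t (F (L t p))) D := by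
  rw [contDiffOn_infty]
  intro n
  exact contDiffOn_pint_nat hD hL hLD n hA (hF.of_le (by exact_mod_cast le_top))

end pint

end

end Vale.Agent.P267.H433
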