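import Vale.Agent.P267.H433.Had

/-!
# P267 / H433 (RRC-LOC): the kernel `C` of a transition and its `∂̄` off the diagonal

`uu s k = conj (s k) / |s|²`, `T.C = (u + J) ∧ (Mᵀ u')` with `u = uu (y - x)`,
`u' = uu (f y - f x)`, and (**L2**) off the diagonal, for every antiholomorphic derivation,
`δ C = det Df(y) e(x)⁻¹ e(y) (u' ∧ δu') - u ∧ δu` (`On.dbv_C`, `On.dbv_C'`).
-/

set_option linter.unusedSectionVars false

namespace Vale.Agent.P267.H433

open scoped ContDiff Topology ComplexConjugate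
open Set Filter MeasureTheory

noncomputable section

/-! ### antiholomorphic derivations -/

section dbv

variable {E : Type} [NormedAddCommGroup E] [NormedSpace ℂ E]
  {W : Type} [NormedAddCommGroup W] [NormedSpace ℂ W]

/-- `∂f/∂v̄` at `x`: `(D_v f + i D_{iv} f) / 2` (the same as `H315.dbv`). -/
def dbv (v : E) (f : E → W) (x : E) : W :=
  (1 / 2 : ℂ) • (fderiv ℝ f x v + Complex.I • fderiv ℝ f x (Complex.I • v))

variable {v : E} {f g : E → W} {x : E}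

theorem dbv_congr (h : f =ᶠ[𝓝 x] g) : dbv v f x = dbv v g x := by
  unfold dbv; rw [h.fderiv_eq]

theorem dbv_const (c : W) : dbv v (fun _ : E => c) x = 0 := by
  simp [dbv]

theorem dbv_add (hf : DifferentiableAt ℝ f x) (hg : DifferentiableAt ℝ g x) :
    dbv v (fun y => f y + g y) x = dbv v f x + dbv v g x := by
  unfold dbv
  rw [fderiv_fun_add hf hg]
  simp only [add_apply]
  module

theorem dbv_sub (hf : DifferentiableAt ℝ f x) (hg : DifferentiableAt ℝ g x) :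
    dbv v (fun y => f y - g y) x = dbv v f x - dbv v g x := by
  unfold dbv
  rw [fderiv_fun_sub hf hg]
  simp only [sub_apply]
  module

theorem dbv_smul {c : E → ℂ} (hc : DifferentiableAt ℝ c x) (hf : DifferentiableAt ℝ f x) :
    dbv v (fun y => c y • f y) x = dbv v c x • f x + c x • dbv v f x := by
  unfold dbv
  have h1 : fderiv ℝ (fun y => c y • f y) x = c x • fderiv ℝ f x + (fderiv ℝ c x).smulRight (f x) :=
    fderiv_fun_smul hc hf
  rw [h1]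
  simp only [add_apply, smul_apply, ContinuousLinearMap.smulRight_apply, smul_eq_mul]
  module

theorem dbv_mul {c d : E → ℂ} (hc : DifferentiableAt ℝ c x) (hd : DifferentiableAt ℝ d x) :
    dbv v (fun y => c y * d y) x = dbv v c x * d x + c x * dbv v d x :=
  dbv_smul hc hd

/-- holomorphic functions are killed -/
theorem dbv_hol (hf : DifferentiableAt ℂ f x) : dbv v f x = 0 := by
  unfold dbv
  rw [hf.fderiv_restrictScalars ℝ]
  simp only [ContinuousLinearMap.coe_restrictScalars', map_smul, smul_smul, Complex.I_mul_I]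
  module

theorem dAt_conj {φ : E → ℂ} (hφ : DifferentiableAt ℂ φ x) :
    DifferentiableAt ℝ (fun y => conj (φ y)) x := by
  have h := hφ.restrictScalars ℝ
  exact Complex.conjCLE.differentiableAt.comp x h

theorem dbv_conj {φ : E → ℂ} (hφ : DifferentiableAt ℂ φ x) :
    dbv v (fun y => conj (φ y)) x = conj (fderiv ℂ φ x v) := by
  have h := (hφ.hasFDerivAt.restrictScalars ℝ)
  have h2 : HasFDerivAt (fun y => conj (φ y))
      ((Complex.conjCLE : ℂ →L[ℝ] ℂ).comp ((fderiv ℂ φ x).restrictScalars ℝ)) x :=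
    Complex.conjCLE.hasFDerivAt.comp x h
  unfold dbv
  rw [h2.fderiv]
  simp only [ContinuousLinearMap.comp_apply, ContinuousLinearMap.coe_restrictScalars', map_smul,
    ContinuousLinearEquiv.coe_coe, Complex.conjCLE_apply, smul_eq_mul, map_mul, Complex.conj_I]
  linear_combination (-(1 / 2) * conj (fderiv ℂ φ x v)) * Complex.I_mul_I

end dbv

/-! ### the Bochner-Martinelli section -/

/-- `|s|²` as a complex number -/
def nn (s : V2) : ℂ := s 0 * conj (s 0) + s 1 * conj (s 1)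

theorem nn_eq (s : V2) : nn s = ((‖s 0‖ ^ 2 + ‖s 1‖ ^ 2 : ℝ) : ℂ) := by
  simp only [nn, Complex.mul_conj, Complex.normSq_eq_norm_sq]
  push_cast
  ring

theorem nn_ne {s : V2} (hs : s ≠ 0) : nn s ≠ 0 := by
  rw [nn_eq]
  norm_cast
  intro h0
  apply hs
  have h1 : ‖s 0‖ ^ 2 = 0 := by nlinarith [sq_nonneg ‖s 0‖, sq_nonneg ‖s 1‖]
  have h2 : ‖s 1‖ ^ 2 = 0 := by nlinarith [sq_nonneg ‖s 0‖, sq_nonneg ‖s 1‖]
  funext i
  fin_cases i
  · simpa using h1
  · simpa using h2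

/-- `u(s)_k = conj(s_k) / |s|²` -/
def uu (s : V2) (k : Fin 2) : ℂ := conj (s k) * (nn s)⁻¹

theorem uu_dot {s : V2} (hs : s ≠ 0) : s 0 * uu s 0 + s 1 * uu s 1 = 1 := by
  have h := nn_ne hs
  have h2 : nn s * (nn s)⁻¹ = 1 := mul_inv_cancel₀ h
  simp only [uu]
  calc s 0 * (conj (s 0) * (nn s)⁻¹) + s 1 * (conj (s 1) * (nn s)⁻¹)
      = (s 0 * conj (s 0) + s 1 * conj (s 1)) * (nn s)⁻¹ := by ring
    _ = 1 := h2

/-- `(u ∧ δu)` for `δs̄ = w̄`: the Bochner-Martinelli form -/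
def bmk (s w : V2) : ℂ := (conj (s 0) * conj (w 1) - conj (s 1) * conj (w 0)) * ((nn s)⁻¹) ^ 2

section uder

variable {σ : VV → V2} {p : VV}

theorem dAt_inv_nn (hσ : ∀ k, DifferentiableAt ℂ (fun q => σ q k) p) (hne : σ p ≠ 0) :
    DifferentiableAt ℝ (fun q => (nn (σ q))⁻¹) p := by
  have hr : ∀ k, DifferentiableAt ℝ (fun q => σ q k) p := fun k => (hσ k).restrictScalars ℝ
  have h1 : DifferentiableAt ℝ (fun q => nn (σ q)) p :=
    ((hr 0).mul (dAt_conj (hσ 0))).add ((hr 1).mul (dAt_conj (hσ 1)))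
  exact h1.fun_inv (nn_ne hne)

theorem dAt_uu (hσ : ∀ k, DifferentiableAt ℂ (fun q => σ q k) p) (hne : σ p ≠ 0) (k : Fin 2) :
    DifferentiableAt ℝ (fun q => uu (σ q) k) p :=
  (dAt_conj (hσ k)).mul (dAt_inv_nn hσ hne)

/-- `⟨s, δu⟩ = 0` -/
theorem dbv_uu_dot (hσ : ∀ k, DifferentiableAt ℂ (fun q => σ q k) p) (hne : σ p ≠ 0) (v : VV) :
    σ p 0 * dbv v (fun q => uu (σ q) 0) p + σ p 1 * dbv v (fun q => uu (σ q) 1) p = 0 := by
  have hr : ∀ k, DifferentiableAt ℝ (fun q => σ q k) p := fun k => (hσ k).restrictScalars ℝ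
  have hc : ContinuousAt σ p := continuousAt_pi.2 fun k => (hσ k).continuousAt
  have h1 : (fun q => σ q 0 * uu (σ q) 0 + σ q 1 * uu (σ q) 1) =ᶠ[𝓝 p] fun _ => (1 : ℂ) := by
    filter_upwards [hc.eventually_ne hne] with q hq using uu_dot hq
  have h2 := dbv_congr (v := v) h1
  rw [dbv_const, dbv_add ((hr 0).fun_mul (dAt_uu hσ hne 0)) ((hr 1).fun_mul (dAt_uu hσ hne 1)),
    dbv_mul (hr 0) (dAt_uu hσ hne 0), dbv_mul (hr 1) (dAt_uu hσ hne 1), dbv_hol (hσ 0),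
    dbv_hol (hσ 1)] at h2
  linear_combination h2

/-- `u ∧ δu` explicitly -/
theorem dbv_uu_wedge (hσ : ∀ k, DifferentiableAt ℂ (fun q => σ q k) p) (hne : σ p ≠ 0)
    (v : VV) :
    uu (σ p) 0 * dbv v (fun q => uu (σ q) 1) p - uu (σ p) 1 * dbv v (fun q => uu (σ q) 0) p =
      bmk (σ p) (fun k => fderiv ℂ (fun q => σ q k) p v) := by
  have h1 : ∀ k, dbv v (fun q => uu (σ q) k) p =
      conj (fderiv ℂ (fun q => σ q k) p v) * (nn (σ p))⁻¹ +
        conj (σ p k) * dbv v (fun q => (nn (σ q))⁻¹) p := by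
    intro k
    have := dbv_mul (v := v) (dAt_conj (hσ k)) (dAt_inv_nn hσ hne)
    rw [dbv_conj (hσ k)] at this
    exact this
  rw [h1, h1]
  simp only [uu, bmk]
  ring

end uder

/-! ### the kernel `C` -/

variable {A : Type} [NormedRing A] [NormedAlgebra ℂ A]

namespace Tr

variable (T : Tr A)

/-- `(Mᵀ u')_k` -/
def b (k : Fin 2) (p : VV) : ℂ :=
  T.M 0 k p * uu (T.f p.2 - T.f p.1) 0 + T.M 1 k p * uu (T.f p.2 - T.f p.1) 1

/-- the kernel `C = (u + J) ∧ (Mᵀ u')` -/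
def C (p : VV) : A :=
  T.b 1 p • (uu (p.2 - p.1) 0 • (1 : A) + T.J 0 p) -
    T.b 0 p • (uu (p.2 - p.1) 1 • (1 : A) + T.J 1 p)

variable {T} {D : Set VV} {Ω : Set V2}

theorem dAt_sub (p : VV) (k : Fin 2) :
    DifferentiableAt ℂ (fun q : VV => (q.2 - q.1) k) p := by
  simp only [Pi.sub_apply]
  fun_prop

theorem fderiv_sub (p v : VV) :
    (fun k => fderiv ℂ (fun q : VV => (q.2 - q.1) k) p v) = v.2 - v.1 := by
  funext k
  have h1 : HasFDerivAt (fun q : VV => (q.2 - q.1) k)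
      ((ContinuousLinearMap.proj (R := ℂ) (φ := fun _ : Fin 2 => ℂ) k).comp
        (ContinuousLinearMap.snd ℂ V2 V2 - ContinuousLinearMap.fst ℂ V2 V2)) p :=
    (ContinuousLinearMap.proj (R := ℂ) (φ := fun _ : Fin 2 => ℂ) k).hasFDerivAt.comp p
      (hasFDerivAt_snd.sub hasFDerivAt_fst)
  rw [h1.fderiv]
  rfl

namespace On

variable (h : T.On D Ω)
include h

theorem dAt_fsub {p : VV} (hp : p ∈ D) (k : Fin 2) :
    DifferentiableAt ℂ (fun q : VV => (T.f q.2 - T.f q.1) k) p :=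
  dAt h.oD ((h.comp_snd (h.hfi k)).sub (h.comp_fst (h.hfi k))) hp

theorem fderiv_fsub {p : VV} (hp : p ∈ D) (v : VV) :
    (fun k => fderiv ℂ (fun q : VV => (T.f q.2 - T.f q.1) k) p v) =
      fderiv ℂ T.f p.2 v.2 - fderiv ℂ T.f p.1 v.1 := by
  funext k
  have d1 : HasFDerivAt (fun q : VV => T.f q.1)
      ((fderiv ℂ T.f p.1).comp (ContinuousLinearMap.fst ℂ V2 V2)) p :=
    (dAt h.isOpen h.hf (h.fst_mem hp)).hasFDerivAt.comp p hasFDerivAt_fst
  have d2 : HasFDerivAt (fun q : VV => T.f q.2)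
      ((fderiv ℂ T.f p.2).comp (ContinuousLinearMap.snd ℂ V2 V2)) p :=
    (dAt h.isOpen h.hf (h.snd_mem p hp)).hasFDerivAt.comp p hasFDerivAt_snd
  have h1 : HasFDerivAt (fun q : VV => (T.f q.2 - T.f q.1) k)
      ((ContinuousLinearMap.proj (R := ℂ) (φ := fun _ : Fin 2 => ℂ) k).comp
        ((fderiv ℂ T.f p.2).comp (ContinuousLinearMap.snd ℂ V2 V2) -
          (fderiv ℂ T.f p.1).comp (ContinuousLinearMap.fst ℂ V2 V2))) p :=
    (ContinuousLinearMap.proj (R := ℂ) (φ := fun _ : Fin 2 => ℂ) k).hasFDerivAt.comp p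
      (d2.sub d1)
  rw [h1.fderiv]
  rfl

/-- `⟨b, s⟩ = 1` -/
theorem b_dot {p : VV} (hp : p ∈ D) (hne : p.2 - p.1 ≠ 0) :
    (p.2 0 - p.1 0) * T.b 0 p + (p.2 1 - p.1 1) * T.b 1 p = 1 := by
  have e0 := h.f_sub hp 0
  have e1 := h.f_sub hp 1
  have e2 := uu_dot (h.f_ne hp hne)
  simp only [Pi.sub_apply] at e2
  simp only [b]
  linear_combination e2 - uu (T.f p.2 - T.f p.1) 0 * e0 - uu (T.f p.2 - T.f p.1) 1 * e1

theorem dAt_b {p : VV} (hp : p ∈ D) (hne : p.2 - p.1 ≠ 0) (k : Fin 2) :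
    DifferentiableAt ℝ (T.b k) p :=
  (((dAt h.oD (h.cM 0 k) hp).restrictScalars ℝ).mul
    (dAt_uu (h.dAt_fsub hp) (h.f_ne hp hne) 0)).add
  (((dAt h.oD (h.cM 1 k) hp).restrictScalars ℝ).mul
    (dAt_uu (h.dAt_fsub hp) (h.f_ne hp hne) 1))

theorem dbv_b {p : VV} (hp : p ∈ D) (hne : p.2 - p.1 ≠ 0) (k : Fin 2) (v : VV) :
    dbv v (T.b k) p = T.M 0 k p * dbv v (fun q => uu (T.f q.2 - T.f q.1) 0) p +
      T.M 1 k p * dbv v (fun q => uu (T.f q.2 - T.f q.1) 1) p := by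
  have m0 := dAt h.oD (h.cM 0 k) hp
  have m1 := dAt h.oD (h.cM 1 k) hp
  have u0 := dAt_uu (h.dAt_fsub hp) (h.f_ne hp hne) 0
  have u1 := dAt_uu (h.dAt_fsub hp) (h.f_ne hp hne) 1
  have e1 : dbv v (T.b k) p = dbv v (fun q => T.M 0 k q * uu (T.f q.2 - T.f q.1) 0 +
      T.M 1 k q * uu (T.f q.2 - T.f q.1) 1) p := rfl
  rw [e1, dbv_add ((m0.restrictScalars ℝ).fun_mul u0) ((m1.restrictScalars ℝ).fun_mul u1),
    dbv_mul (m0.restrictScalars ℝ) u0, dbv_mul (m1.restrictScalars ℝ) u1, dbv_hol m0,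
    dbv_hol m1]
  ring

/-- **(L2)** `δC = det M (u' ∧ δu') j - u ∧ δu` off the diagonal -/
theorem dbv_C [CompleteSpace A] {p : VV} (hp : p ∈ D) (hne : p.2 - p.1 ≠ 0) (v : VV) :
    dbv v T.C p = (T.dM p * bmk (T.f p.2 - T.f p.1)
        (fderiv ℂ T.f p.2 v.2 - fderiv ℂ T.f p.1 v.1)) • T.j p -
      bmk (p.2 - p.1) (v.2 - v.1) • (1 : A) := by
  have hs := dAt_sub p
  have hf := h.dAt_fsub hp
  have hfn := h.f_ne hp hne
  rw [← h.fderiv_fsub hp v, ← fderiv_sub p v]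
  have w1 := dbv_uu_wedge (σ := fun q : VV => q.2 - q.1) hs hne v
  have w2 := dbv_uu_wedge (σ := fun q : VV => T.f q.2 - T.f q.1) hf hfn v
  have z1 := dbv_uu_dot (σ := fun q : VV => q.2 - q.1) hs hne v
  have z2 := dbv_uu_dot (σ := fun q : VV => T.f q.2 - T.f q.1) hf hfn v
  have o1 := uu_dot hne
  have o2 := uu_dot hfn
  have ob := h.b_dot hp hne
  have e0 := h.f_sub hp 0
  have e1 := h.f_sub hp 1
  have eb0 := h.dbv_b hp hne 0 v
  have eb1 := h.dbv_b hp hne 1 v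
  have ej := h.j_eq hp
  have u0 := dAt_uu (σ := fun q : VV => q.2 - q.1) hs hne 0
  have u1 := dAt_uu (σ := fun q : VV => q.2 - q.1) hs hne 1
  have j0 := dAt h.oD (h.cJ 0) hp
  have j1 := dAt h.oD (h.cJ 1) hp
  have b0 := h.dAt_b hp hne 0
  have b1 := h.dAt_b hp hne 1
  have dc : ∀ (x : VV), DifferentiableAt ℝ (fun _ : VV => (1 : A)) x := fun x =>
    differentiableAt_const _
  -- Leibniz
  have L : dbv v T.C p =
      (dbv v (T.b 1) p • (uu (p.2 - p.1) 0 • (1 : A) + T.J 0 p) +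
        T.b 1 p • (dbv v (fun q : VV => uu (q.2 - q.1) 0) p • (1 : A))) -
      (dbv v (T.b 0) p • (uu (p.2 - p.1) 1 • (1 : A) + T.J 1 p) +
        T.b 0 p • (dbv v (fun q : VV => uu (q.2 - q.1) 1) p • (1 : A))) := by
    have e : T.C = fun q => T.b 1 q • (uu (q.2 - q.1) 0 • (1 : A) + T.J 0 q) -
      T.b 0 q • (uu (q.2 - q.1) 1 • (1 : A) + T.J 1 q) := rfl
    have r0 : DifferentiableAt ℝ (fun q : VV => uu (q.2 - q.1) 0 • (1 : A) + T.J 0 q) p :=
      (u0.fun_smul (dc p)).fun_add (j0.restrictScalars ℝ)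
    have r1 : DifferentiableAt ℝ (fun q : VV => uu (q.2 - q.1) 1 • (1 : A) + T.J 1 q) p :=
      (u1.fun_smul (dc p)).fun_add (j1.restrictScalars ℝ)
    rw [e, dbv_sub (b1.fun_smul r0) (b0.fun_smul r1), dbv_smul b1 r0, dbv_smul b0 r1,
      dbv_add (u0.fun_smul (dc p)) (j0.restrictScalars ℝ),
      dbv_add (u1.fun_smul (dc p)) (j1.restrictScalars ℝ), dbv_smul u0 (dc p), dbv_smul u1 (dc p),
      dbv_const, dbv_hol j0, dbv_hol j1]
    simp only [smul_zero, add_zero]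
  simp only [Pi.sub_apply] at z1 z2 o1 o2
  rw [L, ← w1, ← w2, ej, eb0, eb1]
  set s0 := p.2 0 - p.1 0
  set s1 := p.2 1 - p.1 1
  set δ0 := dbv v (fun q : VV => uu (q.2 - q.1) 0) p
  set δ1 := dbv v (fun q : VV => uu (q.2 - q.1) 1) p
  set ε0 := dbv v (fun q : VV => uu (T.f q.2 - T.f q.1) 0) p
  set ε1 := dbv v (fun q : VV => uu (T.f q.2 - T.f q.1) 1) p
  set x0 := uu (p.2 - p.1) 0
  set x1 := uu (p.2 - p.1) 1
  have eb0' : T.b 0 p = T.M 0 0 p * uu (T.f p.2 - T.f p.1) 0 +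
    T.M 1 0 p * uu (T.f p.2 - T.f p.1) 1 := rfl
  have eb1' : T.b 1 p = T.M 0 1 p * uu (T.f p.2 - T.f p.1) 0 +
    T.M 1 1 p * uu (T.f p.2 - T.f p.1) 1 := rfl
  set y0 := uu (T.f p.2 - T.f p.1) 0
  set y1 := uu (T.f p.2 - T.f p.1) 1
  rw [e0, e1] at z2 o2
  -- `δb = β s^⊥`, `δu = α s^⊥`
  have k1 : T.M 0 1 p * ε0 + T.M 1 1 p * ε1 = s0 * (T.dM p * (y0 * ε1 - y1 * ε0)) := by
    simp only [dM]
    linear_combination (-(T.M 0 1 p * ε0 + T.M 1 1 p * ε1)) * o2 +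
      (T.M 0 1 p * y0 + T.M 1 1 p * y1) * z2
  have k0 : T.M 0 0 p * ε0 + T.M 1 0 p * ε1 = -(s1 * (T.dM p * (y0 * ε1 - y1 * ε0))) := by
    simp only [dM]
    linear_combination (-(T.M 0 0 p * ε0 + T.M 1 0 p * ε1)) * o2 +
      (T.M 0 0 p * y0 + T.M 1 0 p * y1) * z2
  have l1 : δ1 = s0 * (x0 * δ1 - x1 * δ0) := by
    linear_combination (-δ1) * o1 + x1 * z1
  have l0 : δ0 = -(s1 * (x0 * δ1 - x1 * δ0)) := by
    linear_combination (-δ0) * o1 + x0 * z1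
  rw [k0, k1]
  set β := T.dM p * (y0 * ε1 - y1 * ε0)
  set α := x0 * δ1 - x1 * δ0
  rw [l0, l1]
  match_scalars
  · linear_combination β * o1 - α * ob
  · ring
  · ring

/-- **(L2)**, explicit form -/
theorem dbv_C' [CompleteSpace A] {p : VV} (hp : p ∈ D) (hne : p.2 - p.1 ≠ 0) (v : VV) :
    dbv v T.C p = (T.jac p.2 * bmk (T.f p.2 - T.f p.1)
        (fderiv ℂ T.f p.2 v.2 - fderiv ℂ T.f p.1 v.1)) • (T.ei p.1 * T.e p.2) -
      bmk (p.2 - p.1) (v.2 - v.1) • (1 : A) := by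
  rw [h.dbv_C hp hne, j, smul_smul]
  congr 2
  have := h.dM_ne p hp
  field_simp

end On

end Tr

end

end Vale.Agent.P267.H433
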