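import Vale.Agent.P267.H433.Iop

/-!
# P267 / H433 (RRC-LOC): the operators `Io j` and `dy k`

`Io j F (x, y) = ∫₀¹ t^j F (x, x + t (y - x)) dt`, `dy k F = ∂F/∂y_k`, on a star shaped
neighbourhood `D` of (a part of) the diagonal of `ℂ² × ℂ²`.
-/

set_option linter.unusedSectionVars false

namespace Vale.Agent.P267.H433

open scoped ContDiff Topology
open Set Filter MeasureTheory

noncomputable section

/-- `ℂ²` -/
abbrev V2 : Type := Fin 2 → ℂ

/-- `ℂ² × ℂ²` with coordinates `(x, y)` -/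
abbrev VV : Type := V2 × V2

/-- unit vectors -/
def ee (k : Fin 2) : V2 := Pi.single k 1

theorem eq_ee (y : V2) : y = y 0 • ee 0 + y 1 • ee 1 := by
  funext i
  fin_cases i <;> simp [ee]

@[simp] theorem ee_00 : ee 0 0 = 1 := by simp [ee]
@[simp] theorem ee_01 : ee 0 1 = 0 := by simp [ee]
@[simp] theorem ee_10 : ee 1 0 = 0 := by simp [ee]
@[simp] theorem ee_11 : ee 1 1 = 1 := by simp [ee]

/-- `(x, y) ↦ (x, x + t (y - x))` -/
def sg (t : ℝ) : VV →L[ℂ] VV :=
  (ContinuousLinearMap.fst ℂ V2 V2).prod (ContinuousLinearMap.fst ℂ V2 V2 +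
    (t : ℂ) • (ContinuousLinearMap.snd ℂ V2 V2 - ContinuousLinearMap.fst ℂ V2 V2))

theorem sg_apply (t : ℝ) (p : VV) : sg t p = (p.1, p.1 + (t : ℂ) • (p.2 - p.1)) := rfl

@[simp] theorem sg_fst (t : ℝ) (p : VV) : (sg t p).1 = p.1 := rfl

theorem sg_snd (t : ℝ) (p : VV) : (sg t p).2 = p.1 + (t : ℂ) • (p.2 - p.1) := rfl

@[simp] theorem sg_one (p : VV) : sg 1 p = p := by
  rw [sg_apply]
  ext1 <;> simp

theorem sg_zero (p : VV) : sg 0 p = (p.1, p.1) := by
  rw [sg_apply]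
  simp

theorem sg_diag (t : ℝ) (x : V2) : sg t (x, x) = (x, x) := by
  rw [sg_apply]
  simp

theorem sg_zero_fst (t : ℝ) (v : V2) : sg t (0, v) = (t : ℂ) • ((0 : V2), v) := by
  rw [sg_apply]
  simp

theorem continuous_sg : Continuous sg := by
  unfold sg
  have h : Continuous fun t : ℝ => ContinuousLinearMap.fst ℂ V2 V2 +
    (t : ℂ) • (ContinuousLinearMap.snd ℂ V2 V2 - ContinuousLinearMap.fst ℂ V2 V2) := by fun_prop
  have h2 : Continuous fun t : ℝ => (ContinuousLinearMap.inl ℂ V2 V2).comp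
      (ContinuousLinearMap.fst ℂ V2 V2) + (ContinuousLinearMap.inr ℂ V2 V2).comp
      (ContinuousLinearMap.fst ℂ V2 V2 +
    (t : ℂ) • (ContinuousLinearMap.snd ℂ V2 V2 - ContinuousLinearMap.fst ℂ V2 V2)) :=
    continuous_const.add (continuous_const.clm_comp h)
  refine h2.congr fun t => ContinuousLinearMap.ext fun p => ?_
  ext1 <;> simp

/-- open sets which contain with `(x, y)` all `(x, x + t (y - x))`, `0 ≤ t ≤ 1` -/
structure StarD (D : Set VV) : Prop where
  isOpen : IsOpen D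
  seg_mem : ∀ p ∈ D, ∀ t ∈ Icc (0 : ℝ) 1, sg t p ∈ D

theorem StarD.diag {D : Set VV} (h : StarD D) {p : VV} (hp : p ∈ D) : (p.1, p.1) ∈ D := by
  have := h.seg_mem p hp 0 ⟨le_rfl, zero_le_one⟩
  rwa [sg_zero] at this

/-- squares of convex open sets -/
theorem starD_prod {O : Set V2} (hO : IsOpen O) (hc : Convex ℝ O) : StarD (O ×ˢ O) := by
  refine ⟨hO.prod hO, fun p hp t ht => ⟨hp.1, ?_⟩⟩
  rw [sg_snd]
  have h3 := hc.add_smul_sub_mem hp.1 hp.2 ht
  rwa [← Complex.coe_smul] at h3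

variable {W : Type} [NormedAddCommGroup W] [NormedSpace ℂ W]

/-- `∫₀¹ t^j F (x, x + t (y - x)) dt` -/
def Io (j : ℕ) (F : VV → W) (p : VV) : W := ∫ t in (0 : ℝ)..1, ((t : ℂ) ^ j) • F (sg t p)

/-- `∂F/∂y_k` -/
def dy (k : Fin 2) (F : VV → W) (p : VV) : W := fderiv ℂ F p (0, ee k)

theorem fderiv_snd_eq (F : VV → W) (p : VV) (w : V2) :
    fderiv ℂ F p (0, w) = w 0 • dy 0 F p + w 1 • dy 1 F p := by
  have e1 : ((0 : V2), w) = w 0 • ((0 : V2), ee 0) + w 1 • ((0 : V2), ee 1) := by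
    ext1
    · simp
    · simpa using eq_ee w
  rw [e1, map_add, map_smul, map_smul]
  rfl

theorem dy_contDiffOn {D : Set VV} (hD : IsOpen D) {F : VV → W} (hF : ContDiffOn ℂ ∞ F D)
    (k : Fin 2) : ContDiffOn ℂ ∞ (dy k F) D :=
  (hF.fderiv_of_isOpen hD (m := ∞) (by simp)).clm_apply contDiffOn_const

theorem dy_congr {F G : VV → W} {p : VV} (h : F =ᶠ[𝓝 p] G) (k : Fin 2) :
    dy k F p = dy k G p := by
  unfold dy; rw [h.fderiv_eq]

theorem dy_congr_of_eqOn {D : Set VV} (hD : IsOpen D) {F G : VV → W} (h : EqOn F G D)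
    {p : VV} (hp : p ∈ D) (k : Fin 2) : dy k F p = dy k G p :=
  dy_congr (h.eventuallyEq_of_mem (hD.mem_nhds hp)) k

theorem continuous_tpow (j : ℕ) :
    Continuous fun t : ℝ => ((t : ℂ) ^ j) • ContinuousLinearMap.id ℂ W := by fun_prop

theorem Io_contDiffOn {D : Set VV} (h : StarD D) {F : VV → W} (hF : ContDiffOn ℂ ∞ F D)
    (j : ℕ) : ContDiffOn ℂ ∞ (Io j F) D :=
  contDiffOn_pint h.isOpen continuous_sg h.seg_mem (continuous_tpow j) hF

theorem continuousOn_seg {D : Set VV} (h : StarD D) {F : VV → W} (hF : ContinuousOn F D)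
    {p : VV} (hp : p ∈ D) : ContinuousOn (fun t : ℝ => F (sg t p)) (Icc (0 : ℝ) 1) :=
  hF.comp (f := fun t : ℝ => sg t p) (continuous_sg.clm_apply continuous_const).continuousOn
    fun t ht => h.seg_mem p hp t ht

theorem intervalIntegrable_seg {D : Set VV} (h : StarD D) {F : VV → W} (hF : ContinuousOn F D)
    {p : VV} (hp : p ∈ D) (j : ℕ) :
    IntervalIntegrable (fun t : ℝ => ((t : ℂ) ^ j) • F (sg t p)) volume 0 1 := by
  refine ContinuousOn.intervalIntegrable ?_
  rw [uIcc_of_le zero_le_one]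
  exact ContinuousOn.smul (by fun_prop) (continuousOn_seg h hF hp)

theorem Io_congr {D : Set VV} (h : StarD D) {F G : VV → W} (hFG : EqOn F G D) (j : ℕ) :
    EqOn (Io j F) (Io j G) D := by
  intro p hp
  refine intervalIntegral.integral_congr fun t ht => ?_
  rw [uIcc_of_le zero_le_one] at ht
  simp only [hFG (h.seg_mem p hp t ht)]

/-- `∂_{y_k} I_j F = I_{j+1} ∂_{y_k} F` -/
theorem dy_Io {D : Set VV} (h : StarD D) {F : VV → W} (hF : ContDiffOn ℂ ∞ F D) (j : ℕ)
    {p : VV} (hp : p ∈ D) (k : Fin 2) : dy k (Io j F) p = Io (j + 1) (dy k F) p := by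
  have h1 := hasFDerivAt_pint h.isOpen continuous_sg (continuous_tpow j)
    (hF.of_le (by simp) : ContDiffOn ℂ 1 F D) (h.seg_mem p hp)
  have h2 : HasFDerivAt (Io j F) (∫ t in (0 : ℝ)..1,
      conjL (((t : ℂ) ^ j) • ContinuousLinearMap.id ℂ W) (sg t) (fderiv ℂ F (sg t p))) p := h1
  have hint : IntervalIntegrable (fun t : ℝ =>
      conjL (((t : ℂ) ^ j) • ContinuousLinearMap.id ℂ W) (sg t) (fderiv ℂ F (sg t p)))
      volume 0 1 := by
    refine ContinuousOn.intervalIntegrable ?_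
    rw [uIcc_of_le zero_le_one]
    exact (continuous_conjL (continuous_tpow j) continuous_sg).continuousOn.clm_apply
      (continuousOn_seg h (hF.continuousOn_fderiv_of_isOpen h.isOpen (by simp)) hp)
  unfold dy Io
  rw [show (fun p : VV => ∫ t in (0 : ℝ)..1, ((t : ℂ) ^ j) • F (sg t p)) = Io j F from rfl,
    h2.fderiv, ContinuousLinearMap.intervalIntegral_apply hint]
  refine intervalIntegral.integral_congr fun t _ => ?_
  simp only [conjL_apply, ContinuousLinearMap.comp_apply, sg_zero_fst, map_smul,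
    smul_apply, ContinuousLinearMap.id_apply, pow_succ, mul_smul]
  rw [smul_comm]

theorem Io_diag [CompleteSpace W] (j : ℕ) (F : VV → W) (x : V2) :
    Io j F (x, x) = (1 / ((j : ℂ) + 1)) • F (x, x) := by
  unfold Io
  simp only [sg_diag]
  rw [intervalIntegral.integral_smul_const]
  congr 1
  have h1 : ∀ t : ℝ, ((t : ℂ) ^ j) = ((t ^ j : ℝ) : ℂ) := fun t => by push_cast; rfl
  simp only [h1]
  rw [intervalIntegral.integral_ofReal, integral_pow]
  push_cast
  simp

/-- the fundamental theorem of calculus along the segment -/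
theorem integral_seg [CompleteSpace W] {D : Set VV} (h : StarD D) {F : VV → W}
    (hF : ContDiffOn ℂ ∞ F D) {p : VV} (hp : p ∈ D) :
    (∫ t in (0 : ℝ)..1, fderiv ℂ F (sg t p) (0, p.2 - p.1)) = F p - F (p.1, p.1) ∧
    (∫ t in (0 : ℝ)..1, (F (sg t p) + (t : ℂ) • fderiv ℂ F (sg t p) (0, p.2 - p.1))) = F p := by
  have hd : ∀ t ∈ Icc (0 : ℝ) 1, HasDerivAt (fun t : ℝ => F (sg t p))
      (fderiv ℂ F (sg t p) (0, p.2 - p.1)) t := by
    intro t ht
    have e1 : HasFDerivAt F (fderiv ℂ F (sg t p)) (sg t p) :=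
      ((hF.contDiffAt (h.isOpen.mem_nhds (h.seg_mem p hp t ht))).differentiableAt
        (by simp)).hasFDerivAt
    have e2 : HasDerivAt (fun t : ℝ => sg t p) ((0 : V2), p.2 - p.1) t := by
      have e3 : HasDerivAt (fun t : ℝ => p.1 + (t : ℂ) • (p.2 - p.1)) (p.2 - p.1) t := by
        have := ((Complex.ofRealCLM.hasDerivAt (x := t)).smul_const (p.2 - p.1)).const_add p.1
        simpa using this
      exact (hasDerivAt_const t p.1).prodMk e3
    exact (e1.restrictScalars ℝ).comp_hasDerivAt t e2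
  have hc1 : ContinuousOn (fun t : ℝ => fderiv ℂ F (sg t p) (0, p.2 - p.1)) (Icc (0 : ℝ) 1) :=
    (continuousOn_seg h (hF.continuousOn_fderiv_of_isOpen h.isOpen (by simp)) hp).clm_apply
      continuousOn_const
  have hc0 : ContinuousOn (fun t : ℝ => F (sg t p)) (Icc (0 : ℝ) 1) :=
    continuousOn_seg h hF.continuousOn hp
  constructor
  · have e := intervalIntegral.integral_eq_sub_of_hasDerivAt
      (f := fun t => F (sg t p)) (f' := fun t => fderiv ℂ F (sg t p) (0, p.2 - p.1))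
      (a := 0) (b := 1) ?_ ?_
    · rw [e, sg_one, sg_zero]
    · intro t ht
      rw [uIcc_of_le zero_le_one] at ht
      exact hd t ht
    · refine ContinuousOn.intervalIntegrable ?_
      rwa [uIcc_of_le zero_le_one]
  · have e := intervalIntegral.integral_eq_sub_of_hasDerivAt
      (f := fun t : ℝ => (t : ℂ) • F (sg t p))
      (f' := fun t => F (sg t p) + (t : ℂ) • fderiv ℂ F (sg t p) (0, p.2 - p.1))
      (a := 0) (b := 1) ?_ ?_
    · rw [e]
      simp
    · intro t ht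
      rw [uIcc_of_le zero_le_one] at ht
      have := (Complex.ofRealCLM.hasDerivAt (x := t)).fun_smul (hd t ht)
      simp only [Complex.ofRealCLM_apply, Complex.ofReal_one, one_smul] at this
      rw [add_comm]
      exact this
    · refine ContinuousOn.intervalIntegrable ?_
      rw [uIcc_of_le zero_le_one]
      exact hc0.add (ContinuousOn.smul (by fun_prop) hc1)

/-- **(T1)** `F(x, y) = F(x, x) + s₀ I₀(∂₀F) + s₁ I₀(∂₁F)`, `s = y - x` -/
theorem Io_ftc [CompleteSpace W] {D : Set VV} (h : StarD D) {F : VV → W}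
    (hF : ContDiffOn ℂ ∞ F D) {p : VV} (hp : p ∈ D) :
    F p = F (p.1, p.1) + ((p.2 0 - p.1 0) • Io 0 (dy 0 F) p +
      (p.2 1 - p.1 1) • Io 0 (dy 1 F) p) := by
  have h1 := (integral_seg h hF hp).1
  have i0 := intervalIntegrable_seg h (dy_contDiffOn h.isOpen hF 0).continuousOn hp 0
  have i1 := intervalIntegrable_seg h (dy_contDiffOn h.isOpen hF 1).continuousOn hp 0
  have h2 : (∫ t in (0 : ℝ)..1, fderiv ℂ F (sg t p) (0, p.2 - p.1)) =
      (p.2 0 - p.1 0) • Io 0 (dy 0 F) p + (p.2 1 - p.1 1) • Io 0 (dy 1 F) p := by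
    have j0 : IntervalIntegrable (fun t : ℝ => (p.2 0 - p.1 0) • ((t : ℂ) ^ 0) •
      dy 0 F (sg t p)) volume 0 1 := i0.smul _
    have j1 : IntervalIntegrable (fun t : ℝ => (p.2 1 - p.1 1) • ((t : ℂ) ^ 0) •
      dy 1 F (sg t p)) volume 0 1 := i1.smul _
    unfold Io
    rw [← intervalIntegral.integral_smul, ← intervalIntegral.integral_smul,
      ← intervalIntegral.integral_add j0 j1]
    refine intervalIntegral.integral_congr fun t _ => ?_
    simp only [fderiv_snd_eq, pow_zero, one_smul, Pi.sub_apply]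
  rw [← h2, h1]
  abel

/-- the derivative of the relation `s₀ R₀ + s₁ R₁ = 0` in the direction `(0, v)` -/
theorem rel_deriv {D : Set VV} (hD : IsOpen D) {R0 R1 : VV → W} (h0 : ContDiffOn ℂ ∞ R0 D)
    (h1 : ContDiffOn ℂ ∞ R1 D)
    (hrel : ∀ p ∈ D, (p.2 0 - p.1 0) • R0 p + (p.2 1 - p.1 1) • R1 p = 0)
    {p : VV} (hp : p ∈ D) (v : V2) :
    v 0 • R0 p + v 1 • R1 p + ((p.2 0 - p.1 0) • fderiv ℂ R0 p (0, v) +
      (p.2 1 - p.1 1) • fderiv ℂ R1 p (0, v)) = 0 := by
  have d0 := ((h0.contDiffAt (hD.mem_nhds hp)).differentiableAt (by simp)).hasFDerivAt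
  have d1 := ((h1.contDiffAt (hD.mem_nhds hp)).differentiableAt (by simp)).hasFDerivAt
  have hl : ∀ i : Fin 2, HasFDerivAt (fun p : VV => p.2 i - p.1 i)
      (((ContinuousLinearMap.proj i).comp (ContinuousLinearMap.snd ℂ V2 V2)) -
        ((ContinuousLinearMap.proj i).comp (ContinuousLinearMap.fst ℂ V2 V2))) p := by
    intro i
    exact ((ContinuousLinearMap.proj (R := ℂ) (φ := fun _ : Fin 2 => ℂ) i).hasFDerivAt.comp p
      hasFDerivAt_snd).sub
      ((ContinuousLinearMap.proj (R := ℂ) (φ := fun _ : Fin 2 => ℂ) i).hasFDerivAt.comp p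
      hasFDerivAt_fst)
  have h2 := ((hl 0).smul d0).add ((hl 1).smul d1)
  have h3 : HasFDerivAt (fun p : VV => (p.2 0 - p.1 0) • R0 p + (p.2 1 - p.1 1) • R1 p)
      (0 : VV →L[ℂ] W) p :=
    (hasFDerivAt_const (0 : W) p).congr_of_eventuallyEq (by
      filter_upwards [hD.mem_nhds hp] with q hq using hrel q hq)
  have h4 := congrArg (fun T : VV →L[ℂ] W => T (0, v)) (h2.unique h3)
  simp only [add_apply, smul_apply,
    ContinuousLinearMap.smulRight_apply, sub_apply,
    ContinuousLinearMap.comp_apply, ContinuousLinearMap.coe_snd', ContinuousLinearMap.coe_fst',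
    ContinuousLinearMap.proj_apply, zero_apply, Pi.zero_apply,
    sub_zero] at h4
  rw [← h4]
  abel

/-- **(T2)** if `s₀ R₀ + s₁ R₁ = 0` then `R₀ = - s₁ r`, `R₁ = s₀ r` with
`r = I₁(∂₀R₁ - ∂₁R₀)` -/
theorem Io_kos [CompleteSpace W] {D : Set VV} (h : StarD D) {R0 R1 : VV → W}
    (h0 : ContDiffOn ℂ ∞ R0 D) (h1 : ContDiffOn ℂ ∞ R1 D)
    (hrel : ∀ p ∈ D, (p.2 0 - p.1 0) • R0 p + (p.2 1 - p.1 1) • R1 p = 0)
    {p : VV} (hp : p ∈ D) :
    R0 p = - ((p.2 1 - p.1 1) • Io 1 (fun q => dy 0 R1 q - dy 1 R0 q) p) ∧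
    R1 p = (p.2 0 - p.1 0) • Io 1 (fun q => dy 0 R1 q - dy 1 R0 q) p := by
  have hs : ∀ (t : ℝ) (i : Fin 2), (sg t p).2 i - (sg t p).1 i =
      (t : ℂ) * (p.2 i - p.1 i) := by
    intro t i
    rw [sg_snd, sg_fst]
    simp
  constructor
  · have e := (integral_seg h h0 hp).2
    rw [← e]
    unfold Io
    rw [← intervalIntegral.integral_smul, ← intervalIntegral.integral_neg]
    refine intervalIntegral.integral_congr fun t ht => ?_
    rw [uIcc_of_le zero_le_one] at ht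
    have h2 := rel_deriv h.isOpen h0 h1 hrel (h.seg_mem p hp t ht) (ee 0)
    simp only [hs, ee_00, ee_01, one_smul, zero_smul, add_zero] at h2
    have h3 : R0 (sg t p) = -(((t : ℂ) * (p.2 0 - p.1 0)) • fderiv ℂ R0 (sg t p) (0, ee 0) +
      ((t : ℂ) * (p.2 1 - p.1 1)) • fderiv ℂ R1 (sg t p) (0, ee 0)) :=
      eq_neg_of_add_eq_zero_left h2
    simp only [fderiv_snd_eq _ _ (p.2 - p.1)]
    rw [h3]
    simp only [dy, pow_one, Pi.sub_apply]
    module
  · have e := (integral_seg h h1 hp).2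
    rw [← e]
    unfold Io
    rw [← intervalIntegral.integral_smul]
    refine intervalIntegral.integral_congr fun t ht => ?_
    rw [uIcc_of_le zero_le_one] at ht
    have h2 := rel_deriv h.isOpen h0 h1 hrel (h.seg_mem p hp t ht) (ee 1)
    simp only [hs, ee_10, ee_11, one_smul, zero_smul, zero_add] at h2
    have h3 : R1 (sg t p) = -(((t : ℂ) * (p.2 0 - p.1 0)) • fderiv ℂ R0 (sg t p) (0, ee 1) +
      ((t : ℂ) * (p.2 1 - p.1 1)) • fderiv ℂ R1 (sg t p) (0, ee 1)) :=
      eq_neg_of_add_eq_zero_left h2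
    simp only [fderiv_snd_eq _ _ (p.2 - p.1)]
    rw [h3]
    simp only [dy, pow_one, Pi.sub_apply]
    module

end

end Vale.Agent.P267.H433
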