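import Vale.Agent.P267.H692.Iface
import Vale.Agent.P267.H399.Calc2

/-!
# P267, ROUTE S, package GS-DBAR (helper433; owner helper739): definitions

`M` = infinite cyclic cover (`D : XTData M`), weight `e^{-d f}`.  `(L, a) = E_1` with its section
`α`, `N` the thin neighbourhood of `Y` and of the inner end, `lam` a holomorphic frame of `E_1` on
`N`, `x = α / lam` holomorphic on `N` with `|x| < ε` there.  `N = N' ∪ F`, where `F` is the outer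
part `{ρ_e < |t| < ρ_2}` of the ring and `N'` is `{|t| < ρ_2'}`.

* `Clo D d N b B`: smooth closed `(0,1)`-forms on `N` with `|b| ≤ B e^{-d f}`;
* `Ring D d N N' F`: (S1)(a), the local input;
* `RingGeo`: the geometry from which `Ring` follows (chart `P = (t, x)` near the ring);
* `Q1 D d`, `Q2 D L a d`: quantitative `H^1_{-d}(O) = 0`, `H^2_{-d}(E_{-1}) = 0`;
* `StDat`: the data of (S1)(b)(c), (S2).
-/

set_option linter.unusedSectionVars false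

open scoped Manifold ContDiff ComplexConjugate Matrix
open Set Filter Topology

noncomputable section

namespace Vale.Agent.P267.H433

open Vale.Agent.P267.FL Vale.Agent.P267.XT Vale.Agent.P267.H692

variable {M : Type} [TopologicalSpace M] [ChartedSpace C2 M]

/-- smooth `∂̄`-closed `(0,1)`-forms on `N` with `|b| ≤ B e^{-d f}` -/
structure Clo (D : XTData M) (d : ℝ) (N : Set M) (b : M → Fin 2 → ℂ) (B : ℝ) : Prop where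
  sm : ∀ y ∈ N, At1 ∞ 0 b y
  cl : ∀ y ∈ N, dbar1 0 b y = 0
  bd : ∀ y ∈ N, n1 D.h 0 b y ≤ B * Real.exp (-d * D.f y)

/-- (S1)(a): `∂̄σ = b` on the outer part of the ring, `σ` smooth and bounded on `N'`, constants
independent of `b` -/
def Ring (D : XTData M) (d : ℝ) (N N' F : Set M) : Prop :=
  ∃ C : ℝ, 0 ≤ C ∧ ∀ (b : M → Fin 2 → ℂ) (B : ℝ), 0 ≤ B → Clo D d N b B →
    ∃ σ : M → ℂ, (∀ y ∈ N', At0 ∞ 0 σ y) ∧
      (∀ y ∈ N', ‖σ y‖ ≤ C * B * Real.exp (-d * D.f y)) ∧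
      (∀ y ∈ N', n1 D.h 0 (dbar0 0 σ) y ≤ C * B * Real.exp (-d * D.f y)) ∧
      ∀ y ∈ N', y ∈ F → ∀ i, dbar0 0 σ y i = b y i

/-- the part `r < |t| < s`, `|x| < ε` of the source of the chart `P = (t, x)` -/
def rg (P : Ch M) (ε r s : ℝ) : Set M :=
  {y | y ∈ P.source ∧ r < ‖P y 0‖ ∧ ‖P y 0‖ < s ∧ ‖P y 1‖ < ε}

/-- the geometry of the ring; radii `0 < r₀ < r₁ < r₂ < r₃ < r₄` -/
structure RingGeo (A N N' F : Set M) (P : Ch M) (ε r₀ r₁ r₂ r₃ r₄ : ℝ) : Prop where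
  ε_pos : 0 < ε
  r0_pos : 0 < r₀
  r01 : r₀ < r₁
  r12 : r₁ < r₂
  r23 : r₂ < r₃
  r34 : r₃ < r₄
  /-- the closed polyring is in the image of the chart -/
  tgt : {z : C2 | r₀ ≤ ‖z 0‖ ∧ ‖z 0‖ ≤ r₄ ∧ ‖z 1‖ ≤ ε} ⊆ P.target
  hol : ∀ e ∈ atlas C2 M, DifferentiableOn ℂ (fun z => P (e.symm z))
    (e.target ∩ e.symm ⁻¹' P.source)
  hol' : ∀ e ∈ atlas C2 M, DifferentiableOn ℂ (fun z => e (P.symm z))
    (P.target ∩ P.symm ⁻¹' e.source)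
  A_open : IsOpen A
  /-- the part of `N` off the ring meets the ring in `|t| < r₁` only -/
  A_ring : ∀ y ∈ A, y ∈ rg P ε r₀ r₄ → ‖P y 0‖ < r₁
  N_eq : N = A ∪ rg P ε r₀ r₄
  N'_eq : N' = A ∪ rg P ε r₀ r₃
  F_eq : F = rg P ε r₂ r₄

/-- `H^1_{-d}(O) = 0` with a bound -/
def Q1 (D : XTData M) (d : ℝ) : Prop :=
  ∃ C : ℝ, 0 ≤ C ∧ ∀ (g : M → Fin 2 → ℂ) (B : ℝ), 0 ≤ B → Reg1 ∞ 0 g →
    (∀ x, n1 D.h 0 g x ≤ B * Real.exp (-d * D.f x)) → (∀ x, dbar1 0 g x = 0) →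
    ∃ u : M → ℂ, Reg0 ∞ 0 u ∧ (∀ x, ‖u x‖ ≤ C * B * Real.exp (-d * D.f x)) ∧
      ∀ x i, dbar0 0 u x i = g x i

variable {ι : Type} [Fintype ι] [DecidableEq ι]

/-- `H^2_{-d}(E_{-1}) = 0` with a bound -/
def Q2 (D : XTData M) (L : LB M ι) (a : M → Fin 2 → ℂ) (d : ℝ) : Prop :=
  ∃ C : ℝ, 0 ≤ C ∧ ∀ (r : M → EuclideanSpace ℂ ι) (B : ℝ), 0 ≤ B → Reg2 ∞ 0 r → L.dual.Sec r →
    (∀ x, n2 D.h 0 r x ≤ B * Real.exp (-d * D.f x)) →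
    ∃ v : M → Fin 2 → EuclideanSpace ℂ ι, Reg1 ∞ 0 v ∧ L.dual.Sec1 v ∧
      (∀ x, L.dual.db1 (neg a) 0 v x = r x) ∧
      ∀ x, n1 D.h 0 v x ≤ C * B * Real.exp (-d * D.f x)

/-- the data of (S1)(b)(c), (S2) -/
structure StDat (D : XTData M) (L : LB M ι) (a : M → Fin 2 → ℂ) (α : M → EuclideanSpace ℂ ι)
    (d : ℝ) (N N' F : Set M) (x : M → ℂ) (lam : M → EuclideanSpace ℂ ι) (ε : ℝ) : Prop where
  ε_pos : 0 < ε
  N'_open : IsOpen N'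
  F_open : IsOpen F
  cover : N = N' ∪ F
  /-- the section `α` of `(L, a)` -/
  α_reg : Reg0 ∞ 0 α
  α_sec : L.Sec α
  α_hol : ∀ y i, L.db0 a 0 α y i = 0
  α_bdd : ∃ C : ℝ, ∀ y, ‖α y‖ ≤ C
  /-- the function `x` -/
  x_sm : ∀ y ∈ N, At0 ∞ 0 x y
  x_hol : ∀ y ∈ N, ∀ i, dbar0 0 x y i = 0
  x_lt : ∀ y ∈ N, ‖x y‖ < ε
  /-- the frame `lam` -/
  lam_sm : ∀ y ∈ N, At0 ∞ 0 lam y
  lam_sec : ∀ y ∈ N, LB.act (L.P y) (lam y) = lam y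
  lam_bd : ∃ C : ℝ, ∀ y ∈ N, ‖lam y‖ ≤ C ∧ 1 ≤ C * ‖lam y‖
  α_eq : ∀ y ∈ N, α y = x y • lam y
  dense : N ⊆ closure {y | y ∈ N ∧ x y ≠ 0}
  /-- the part of `N` where `|x| ≤ 2ε/3`, cut at the ring, is closed in `M` -/
  closed : IsClosed {y | y ∈ N ∧ ‖x y‖ ≤ 2 * ε / 3 ∧ y ∉ F}
  /-- away from `{x = 0}` the set `N` is bounded -/
  f_bd : ∃ T : ℝ, ∀ y ∈ N, ε / 3 ≤ ‖x y‖ → |D.f y| ≤ T
  q1 : Q1 D d
  q2 : Q2 D L a d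
  ring : Ring D d N N' F

/-- (S1), the output: one step without loss of domain -/
def OneStep (D : XTData M) (d : ℝ) (N N' : Set M) (x : M → ℂ) : Prop :=
  ∃ C : ℝ, 0 ≤ C ∧ ∀ (b : M → Fin 2 → ℂ) (B : ℝ), 0 ≤ B → Clo D d N b B →
    ∃ (s : M → ℂ) (b₁ : M → Fin 2 → ℂ), (∀ y ∈ N', At0 ∞ 0 s y) ∧
      (∀ y ∈ N', ‖s y‖ ≤ C * B * Real.exp (-d * D.f y)) ∧ Clo D d N b₁ (C * B) ∧
      ∀ y ∈ N', ∀ i, b y i = dbar0 0 s y i + x y * b₁ y i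

/-- (S2), the output: `H^1 = 0` near `{x = 0}`, with a bound -/
def Solv (D : XTData M) (d : ℝ) (N N' : Set M) (x : M → ℂ) : Prop :=
  ∃ ε' : ℝ, 0 < ε' ∧ ∃ C : ℝ, 0 ≤ C ∧ ∀ (b : M → Fin 2 → ℂ) (B : ℝ), 0 ≤ B → Clo D d N b B →
    ∃ S : M → ℂ, ∀ y ∈ N', ‖x y‖ < ε' → At0 ∞ 0 S y ∧ (∀ i, dbar0 0 S y i = b y i) ∧
      ‖S y‖ ≤ C * B * Real.exp (-d * D.f y)

end Vale.Agent.P267.H433
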