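import Vale.Agent.P267.H433.Diag

/-!
# P267 / H433 (RRC-LOC): the Todd density

`CompOn.r_diag`: `r (x,x) = ½ (B₁ A₀ - B₀ A₁) - (1/24) tr(α₀ α'₁ - α₁ α'₀)`, and for a trace `τ`
`τ (r (x,x)) = dens τ T (S∘T) x` (`CompOn.tr_r_diag`).
-/

set_option linter.unusedSectionVars false

namespace Vale.Agent.P267.H433

open scoped ContDiff Topology ComplexConjugate
open Set Filter MeasureTheory

noncomputable section

variable {A : Type} [NormedRing A] [NormedAlgebra ℂ A]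

namespace Tr

variable (S T : Tr A)

/-- `∂_j M^S_{im}` at `(f x, f y)` -/
def Kd (i j m : Fin 2) (p : VV) : ℂ := dy j (S.M i m) (T.Ph p)

def Ld (j m : Fin 2) (p : VV) : ℂ := T.df j 0 p.2 * T.M m 1 p - T.df j 1 p.2 * T.M m 0 p

variable {S T} {D D' : Set VV} {Ω Ω' : Set V2}

namespace CompOn

variable (h : CompOn S T D D' Ω Ω')
include h

theorem dy_N {p : VV} (hp : p ∈ D) (i m l : Fin 2) :
    dy l (fun q => S.M i m (T.Ph q)) p =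
      T.df 0 l p.2 * S.Kd T i 0 m p + T.df 1 l p.2 * S.Kd T i 1 m p :=
  dy_comp (G := S.M i m) (f := T.f) (dAt h.hS.oD (h.hS.cM i m) (h.maps p hp))
    (dAt h.hT.isOpen h.hT.hf (h.hT.fst_mem hp)) (dAt h.hT.isOpen h.hT.hf (h.hT.snd_mem p hp)) l

theorem cKd (i j m : Fin 2) : ContDiffOn ℂ ∞ (S.Kd T i j m) D :=
  h.cG (dy_contDiffOn h.hS.oD (h.hS.cM i m) j)

theorem cLd (j m : Fin 2) : ContDiffOn ℂ ∞ (T.Ld j m) D :=
  ((h.hT.comp_snd (h.hT.cdf j 0)).mul (h.hT.cM m 1)).sub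
    ((h.hT.comp_snd (h.hT.cdf j 1)).mul (h.hT.cM m 0))

theorem dy_Q {p : VV} (hp : p ∈ D) (i k l : Fin 2) :
    dy l (S.Q T i k) p =
      ((T.df 0 l p.2 * S.Kd T i 0 0 p + T.df 1 l p.2 * S.Kd T i 1 0 p) * T.M 0 k p +
        S.M i 0 (T.Ph p) * dy l (T.M 0 k) p) +
      ((T.df 0 l p.2 * S.Kd T i 0 1 p + T.df 1 l p.2 * S.Kd T i 1 1 p) * T.M 1 k p +
        S.M i 1 (T.Ph p) * dy l (T.M 1 k) p) := by
  have n0 := dAt h.hT.oD (h.cG (h.hS.cM i 0)) hp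
  have n1 := dAt h.hT.oD (h.cG (h.hS.cM i 1)) hp
  have m0 := dAt h.hT.oD (h.hT.cM 0 k) hp
  have m1 := dAt h.hT.oD (h.hT.cM 1 k) hp
  have e : dy l (S.Q T i k) p = dy l (fun q => S.M i 0 (T.Ph q) * T.M 0 k q +
    S.M i 1 (T.Ph q) * T.M 1 k q) p := rfl
  rw [e, dy_add (n0.fun_mul m0) (n1.fun_mul m1), dy_mul n0 m0, dy_mul n1 m1, h.dy_N hp,
    h.dy_N hp]

theorem Kd_symm {p : VV} (hp : p ∈ D) (i : Fin 2) : S.Kd T i 1 0 p = S.Kd T i 0 1 p :=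
  h.hS.dy_M_symm (h.maps p hp) i 0 1

/-- the curl of the rows of `P - Q` -/
theorem curl_E {p : VV} (hp : p ∈ D) (i : Fin 2) :
    dy 0 (S.E T i 1) p - dy 1 (S.E T i 0) p =
      -(S.Kd T i 0 0 p * T.Ld 0 0 p + (S.Kd T i 1 1 p * T.Ld 1 1 p +
        S.Kd T i 0 1 p * (T.Ld 0 1 p + T.Ld 1 0 p))) := by
  have p0 := dAt h.hT.oD (h.hC.cM i 0) hp
  have p1 := dAt h.hT.oD (h.hC.cM i 1) hp
  have q0 := dAt h.hT.oD (h.cQ i 0) hp
  have q1 := dAt h.hT.oD (h.cQ i 1) hp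
  have e0 : dy 1 (S.E T i 0) p = dy 1 (fun q => (S.comp T).M i 0 q - S.Q T i 0 q) p := rfl
  have e1 : dy 0 (S.E T i 1) p = dy 0 (fun q => (S.comp T).M i 1 q - S.Q T i 1 q) p := rfl
  rw [e0, e1, dy_sub p0 q0, dy_sub p1 q1, h.dy_Q hp, h.dy_Q hp, h.hC.dy_M_symm hp i 0 1,
    h.hT.dy_M_symm hp 0 0 1, h.hT.dy_M_symm hp 1 0 1, h.Kd_symm hp]
  simp only [Ld]
  ring

theorem n_diag {x : V2} (hx : (x, x) ∈ D) (i : Fin 2) : S.n T i (x, x) = 0 := by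
  rw [n, Io_diag, h.curl_E hx]
  simp only [Ld, h.hT.M_diag hx, smul_eq_mul]
  ring

theorem dy_Ld {x : V2} (hx : (x, x) ∈ D) (j m l : Fin 2) :
    dy l (T.Ld j m) (x, x) =
      (T.dJm l x j 0 * T.df m 1 x + T.df j 0 x * ((1 / 2) * T.dJm l x m 1)) -
      (T.dJm l x j 1 * T.df m 0 x + T.df j 1 x * ((1 / 2) * T.dJm l x m 0)) := by
  have hxΩ := h.hT.snd_mem _ hx
  have f0 := dAt h.hT.oD (h.hT.comp_snd (h.hT.cdf j 0)) hx
  have f1 := dAt h.hT.oD (h.hT.comp_snd (h.hT.cdf j 1)) hx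
  have m0 := dAt h.hT.oD (h.hT.cM m 0) hx
  have m1 := dAt h.hT.oD (h.hT.cM m 1) hx
  have e : dy l (T.Ld j m) (x, x) = dy l (fun p : VV => T.df j 0 p.2 * T.M m 1 p -
    T.df j 1 p.2 * T.M m 0 p) (x, x) := rfl
  rw [e, dy_sub (f0.fun_mul m1) (f1.fun_mul m0), dy_mul f0 m1, dy_mul f1 m0,
    dy_snd (φ := T.df j 0) (h.hT.dAt_df hxΩ j 0), dy_snd (φ := T.df j 1) (h.hT.dAt_df hxΩ j 1),
    h.hT.dy_M_diag hx, h.hT.dy_M_diag hx, h.hT.M_diag hx, h.hT.M_diag hx]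
  rfl

/-- the first derivatives of `n` on the diagonal -/
theorem dy_n {x : V2} (hx : (x, x) ∈ D) (i l : Fin 2) :
    dy l (S.n T i) (x, x) = -(1 / 12) *
      ((h.bm 1 x * T.dJm 0 x) i l - (h.bm 0 x * T.dJm 1 x) i l) := by
  have hxΩ := h.hT.snd_mem _ hx
  have hfx := h.fst_eq hx
  have cE' := ((dy_contDiffOn h.hT.oD (h.cE i 1) 0).sub (dy_contDiffOn h.hT.oD (h.cE i 0) 1))
  have e1 : dy l (S.n T i) (x, x) =
      Io 2 (dy l (fun q => dy 0 (S.E T i 1) q - dy 1 (S.E T i 0) q)) (x, x) :=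
    dy_Io h.hT.star cE' 1 hx l
  have L : ∀ j m, DifferentiableAt ℂ (T.Ld j m) (x, x) := fun j m => dAt h.hT.oD (h.cLd j m) hx
  have K : ∀ j m, DifferentiableAt ℂ (S.Kd T i j m) (x, x) :=
    fun j m => dAt h.hT.oD (h.cKd i j m) hx
  have e2 : dy l (fun q => dy 0 (S.E T i 1) q - dy 1 (S.E T i 0) q) (x, x) =
      dy l (fun p => (-1 : ℂ) * (S.Kd T i 0 0 p * T.Ld 0 0 p + (S.Kd T i 1 1 p * T.Ld 1 1 p +
        S.Kd T i 0 1 p * (T.Ld 0 1 p + T.Ld 1 0 p)))) (x, x) :=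
    dy_congr_of_eqOn h.hT.oD (fun q hq => by
      rw [h.curl_E hq]; ring) hx l
  have z0 : T.Ld 0 0 (x, x) = 0 := by simp only [Ld, h.hT.M_diag hx]; ring
  have z1 : T.Ld 1 1 (x, x) = 0 := by simp only [Ld, h.hT.M_diag hx]; ring
  have z2 : T.Ld 0 1 (x, x) + T.Ld 1 0 (x, x) = 0 := by simp only [Ld, h.hT.M_diag hx]; ring
  have kd : ∀ j m, S.Kd T i j m (x, x) = (1 / 2) * S.dJm j (T.f x) i m := fun j m =>
    h.hS.dy_M_diag hfx i j m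
  have s1 : S.dJm 1 (T.f x) i 0 = S.dJm 0 (T.f x) i 1 := h.hS.ddf_symm (h.maps' x hxΩ) i 1 0
  have s2 : T.dJm l x 0 0 = T.dJm 0 x 0 l := h.hT.ddf_symm hxΩ 0 l 0
  have s3 : T.dJm l x 0 1 = T.dJm 1 x 0 l := h.hT.ddf_symm hxΩ 0 l 1
  have s4 : T.dJm l x 1 0 = T.dJm 0 x 1 l := h.hT.ddf_symm hxΩ 1 l 0
  have s5 : T.dJm l x 1 1 = T.dJm 1 x 1 l := h.hT.ddf_symm hxΩ 1 l 1
  have c1 : DifferentiableAt ℂ (fun _ : VV => (-1 : ℂ)) (x, x) := differentiableAt_const _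
  rw [e1, Io_diag, e2, dy_mul c1 (((K 0 0).fun_mul (L 0 0)).fun_add
    (((K 1 1).fun_mul (L 1 1)).fun_add ((K 0 1).fun_mul ((L 0 1).fun_add (L 1 0))))),
    dy_const, dy_add ((K 0 0).fun_mul (L 0 0))
    (((K 1 1).fun_mul (L 1 1)).fun_add ((K 0 1).fun_mul ((L 0 1).fun_add (L 1 0)))),
    dy_add ((K 1 1).fun_mul (L 1 1)) ((K 0 1).fun_mul ((L 0 1).fun_add (L 1 0))),
    dy_mul_zero (K 0 0) (L 0 0) z0, dy_mul_zero (K 1 1) (L 1 1) z1,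
    dy_mul_zero (K 0 1) ((L 0 1).fun_add (L 1 0)) z2, dy_add (L 0 1) (L 1 0),
    h.dy_Ld hx, h.dy_Ld hx, h.dy_Ld hx, h.dy_Ld hx, kd, kd, kd, s2, s3, s4, s5]
  simp only [bm, Matrix.mul_apply, Fin.sum_univ_two, Matrix.add_apply, Matrix.smul_apply,
    smul_eq_mul, s1]
  push_cast
  ring

/-- `div ν` on the diagonal -/
theorem div_nu {x : V2} (hx : (x, x) ∈ D) :
    dy 0 (S.nu0 T) (x, x) + dy 1 (S.nu1 T) (x, x) = -(1 / 12) *
      (T.al 0 x * (S.comp T).al 1 x - T.al 1 x * (S.comp T).al 0 x).trace := by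
  have hxΩ := h.hT.snd_mem _ hx
  have dn : ∀ i, DifferentiableAt ℂ (S.n T i) (x, x) := fun i => dAt h.hT.oD (h.cn i) hx
  have dq : ∀ i k, DifferentiableAt ℂ (S.Q T i k) (x, x) := fun i k => dAt h.hT.oD (h.cQ i k) hx
  have di : DifferentiableAt ℂ (fun p => (S.dQ T p)⁻¹) (x, x) :=
    dAt h.hT.oD (h.cdQ.inv fun _ hp => h.dQ_ne hp) hx
  have z0 : S.Q T 1 1 (x, x) * S.n T 0 (x, x) - S.Q T 0 1 (x, x) * S.n T 1 (x, x) = 0 := by
    rw [h.n_diag hx, h.n_diag hx]; ring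
  have z1 : S.Q T 0 0 (x, x) * S.n T 1 (x, x) - S.Q T 1 0 (x, x) * S.n T 0 (x, x) = 0 := by
    rw [h.n_diag hx, h.n_diag hx]; ring
  have e0 : dy 0 (S.nu0 T) (x, x) = (S.dQ T (x, x))⁻¹ *
      (S.Q T 1 1 (x, x) * dy 0 (S.n T 0) (x, x) - S.Q T 0 1 (x, x) * dy 0 (S.n T 1) (x, x)) := by
    have e : dy 0 (S.nu0 T) (x, x) = dy 0 (fun p => (S.dQ T p)⁻¹ *
      (S.Q T 1 1 p * S.n T 0 p - S.Q T 0 1 p * S.n T 1 p)) (x, x) := rfl
    rw [e, dy_mul_zero di (((dq 1 1).fun_mul (dn 0)).fun_sub ((dq 0 1).fun_mul (dn 1))) z0,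
      dy_sub ((dq 1 1).fun_mul (dn 0)) ((dq 0 1).fun_mul (dn 1)),
      dy_mul_zero (dq 1 1) (dn 0) (h.n_diag hx 0), dy_mul_zero (dq 0 1) (dn 1) (h.n_diag hx 1)]
  have e1 : dy 1 (S.nu1 T) (x, x) = (S.dQ T (x, x))⁻¹ *
      (S.Q T 0 0 (x, x) * dy 1 (S.n T 1) (x, x) - S.Q T 1 0 (x, x) * dy 1 (S.n T 0) (x, x)) := by
    have e : dy 1 (S.nu1 T) (x, x) = dy 1 (fun p => (S.dQ T p)⁻¹ *
      (S.Q T 0 0 p * S.n T 1 p - S.Q T 1 0 p * S.n T 0 p)) (x, x) := rfl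
    rw [e, dy_mul_zero di (((dq 0 0).fun_mul (dn 1)).fun_sub ((dq 1 0).fun_mul (dn 0))) z1,
      dy_sub ((dq 0 0).fun_mul (dn 1)) ((dq 1 0).fun_mul (dn 0)),
      dy_mul_zero (dq 0 0) (dn 1) (h.n_diag hx 1), dy_mul_zero (dq 1 0) (dn 0) (h.n_diag hx 0)]
  -- `Q = G F` on the diagonal
  set F := T.Jm x with hF
  set G := S.Jm (T.f x) with hG
  have q : ∀ i k, S.Q T i k (x, x) = (G * F) i k := by
    intro i k
    have eM : ∀ m, S.M i m (T.Ph (x, x)) = S.df i m (T.f x) := fun m =>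
      h.hS.M_diag (h.fst_eq hx) i m
    simp only [Q, eM, h.hT.M_diag hx, hF, hG, Jm, Matrix.mul_apply, Fin.sum_univ_two,
      Matrix.of_apply]
  have qd : S.dQ T (x, x) = (G * F).det := by
    rw [h.dQ_eq, Matrix.det_fin_two, q, q, q, q]
  have d1 : IsUnit F.det := by
    rw [hF, det_Jm]; exact (h.hT.jac_ne hx).isUnit
  have e2 : dy 0 (S.nu0 T) (x, x) + dy 1 (S.nu1 T) (x, x) =
      -(1 / 12) * ((G * F)⁻¹ * (h.bm 1 x * T.dJm 0 x - h.bm 0 x * T.dJm 1 x)).trace := by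
    rw [e0, e1, h.dy_n hx, h.dy_n hx, h.dy_n hx, h.dy_n hx, Matrix.inv_def, Matrix.adjugate_fin_two,
      Ring.inverse_eq_inv', Matrix.smul_mul, Matrix.trace_smul, qd, q, q, q, q]
    simp only [Matrix.trace_fin_two, Matrix.mul_apply, Fin.sum_univ_two, Matrix.sub_apply,
      Matrix.of_apply, Matrix.cons_val', Matrix.cons_val_zero, Matrix.cons_val_one,
      Matrix.cons_val_fin_one, smul_eq_mul]
    ring
  rw [e2]
  congr 1
  have a1 : ∀ k l, (G * F)⁻¹ * (h.bm k x * T.dJm l x) =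
      ((S.comp T).al k x - T.al k x) * T.al l x := by
    intro k l
    rw [h.al_comp hx, add_sub_cancel_right, Matrix.mul_inv_rev, al, ← hF, ← hG]
    calc F⁻¹ * G⁻¹ * (h.bm k x * T.dJm l x)
        = F⁻¹ * G⁻¹ * h.bm k x * (1 * T.dJm l x) := by
          rw [Matrix.one_mul]; simp only [Matrix.mul_assoc]
      _ = F⁻¹ * G⁻¹ * h.bm k x * ((F * F⁻¹) * T.dJm l x) := by
          rw [Matrix.mul_nonsing_inv _ d1]
      _ = _ := by simp only [Matrix.mul_assoc]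
  rw [Matrix.mul_sub, a1, a1, Matrix.trace_sub, Matrix.trace_sub, Matrix.sub_mul,
    Matrix.sub_mul, Matrix.trace_sub, Matrix.trace_sub,
    Matrix.trace_mul_comm ((S.comp T).al 1 x) (T.al 0 x),
    Matrix.trace_mul_comm ((S.comp T).al 0 x) (T.al 1 x), Matrix.trace_mul_comm (T.al 1 x)
    (T.al 0 x)]
  ring

/-- `B` is curl free on the diagonal -/
theorem curl_B [CompleteSpace A] {x : V2} (hx : (x, x) ∈ D) :
    dy 0 (S.B T 1) (x, x) = dy 1 (S.B T 0) (x, x) := by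
  have hxΩ := h.hT.snd_mem _ hx
  have hfx := h.fst_eq hx
  have hfd := dAt h.hT.isOpen h.hT.hf hxΩ
  have m : ∀ i k, DifferentiableAt ℂ (T.M i k) (x, x) := fun i k => dAt h.hT.oD (h.hT.cM i k) hx
  have dX : ∀ i, DifferentiableAt ℂ (S.X T i) (x, x) := fun i => dAt h.hT.oD (h.cX i) hx
  have di : DifferentiableAt ℂ (fun p : VV => T.ei p.1) (x, x) :=
    dAt h.hT.oD (h.hT.comp_fst h.hT.hei) hx
  have de : DifferentiableAt ℂ (fun p : VV => T.e p.1) (x, x) :=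
    dAt h.hT.oD (h.hT.comp_fst h.hT.he) hx
  have dJ : ∀ i, DifferentiableAt ℂ (fun p : VV => S.J i (T.Ph p)) (x, x) := fun i =>
    dAt h.hT.oD (h.cG (h.hS.cJ i)) hx
  -- derivative of `X_i`
  have eX : ∀ i l, dy l (S.X T i) (x, x) =
      T.df 0 l x • (T.ei x * dy 0 (S.J i) (T.f x, T.f x) * T.e x) +
      T.df 1 l x • (T.ei x * dy 1 (S.J i) (T.f x, T.f x) * T.e x) := by
    intro i l
    have e : dy l (S.X T i) (x, x) = dy l (fun p : VV => (T.ei p.1 * S.J i (T.Ph p)) * T.e p.1)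
      (x, x) := rfl
    have ec : dy l (fun q : VV => S.J i (T.Ph q)) (x, x) =
        T.df 0 l x • dy 0 (S.J i) (T.f x, T.f x) + T.df 1 l x • dy 1 (S.J i) (T.f x, T.f x) :=
      dy_comp (G := S.J i) (f := T.f) (p := (x, x)) (dAt h.hS.oD (h.hS.cJ i) hfx) hfd hfd l
    rw [e, dy_mul (di.fun_mul (dJ i)) de, dy_mul di (dJ i), ec,
      dy_fst (φ := T.ei) (dAt h.hT.isOpen h.hT.hei hxΩ),
      dy_fst (φ := T.e) (dAt h.hT.isOpen h.hT.he hxΩ)]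
    simp only [zero_mul, zero_add, mul_zero, add_zero, mul_add, add_mul, mul_smul_comm,
      smul_mul_assoc]
  have eB : ∀ k l, dy l (S.B T k) (x, x) =
      (dy l (T.M 0 k) (x, x) • S.X T 0 (x, x) + T.M 0 k (x, x) • dy l (S.X T 0) (x, x)) +
      (dy l (T.M 1 k) (x, x) • S.X T 1 (x, x) + T.M 1 k (x, x) • dy l (S.X T 1) (x, x)) := by
    intro k l
    have e : dy l (S.B T k) (x, x) = dy l (fun p : VV => T.M 0 k p • S.X T 0 p +
      T.M 1 k p • S.X T 1 p) (x, x) := rfl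
    rw [e, dy_add ((m 0 k).fun_smul (dX 0)) ((m 1 k).fun_smul (dX 1)), dy_smul (m 0 k) (dX 0),
      dy_smul (m 1 k) (dX 1)]
  rw [eB, eB, h.hT.dy_M_symm hx 0 0 1, h.hT.dy_M_symm hx 1 0 1, eX, eX, eX, eX,
    h.hS.dy_J_symm hfx 0 1]
  simp only [h.hT.M_diag hx]
  module

/-- **the value of `r` on the diagonal** -/
theorem r_diag [CompleteSpace A] {x : V2} (hx : (x, x) ∈ D) :
    S.r T (x, x) =
      (1 / 2 : ℂ) • (S.B T 1 (x, x) * T.J 0 (x, x) - S.B T 0 (x, x) * T.J 1 (x, x)) -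
      ((1 / 24) * (T.al 0 x * (S.comp T).al 1 x - T.al 1 x * (S.comp T).al 0 x).trace) •
        (1 : A) := by
  have dJ : ∀ k, DifferentiableAt ℂ (T.J k) (x, x) := fun k => dAt h.hT.oD (h.hT.cJ k) hx
  have dC : ∀ k, DifferentiableAt ℂ ((S.comp T).J k) (x, x) :=
    fun k => dAt h.hT.oD (h.hC.cJ k) hx
  have dB : ∀ k, DifferentiableAt ℂ (S.B T k) (x, x) := fun k => dAt h.hT.oD (h.cB k) hx
  have dn0 := dAt h.hT.oD h.cnu0 hx
  have dn1 := dAt h.hT.oD h.cnu1 hx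
  have d1 : DifferentiableAt ℂ (fun _ : VV => (1 : A)) (x, x) := differentiableAt_const _
  have dJs := dAt h.hT.oD h.hT.cJs hx
  have dCs := dAt h.hT.oD h.hC.cJs hx
  have ds : ∀ k : Fin 2, DifferentiableAt ℂ (fun p : VV => p.2 k - p.1 k) (x, x) := by
    intro k; fun_prop
  have es : ∀ k l : Fin 2, dy l (fun p : VV => p.2 k - p.1 k) (x, x) = ee l k := by
    intro k l
    have h1 : HasFDerivAt (fun q : VV => q.2 k - q.1 k)
        ((ContinuousLinearMap.proj (R := ℂ) (φ := fun _ : Fin 2 => ℂ) k).comp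
          (ContinuousLinearMap.snd ℂ V2 V2 - ContinuousLinearMap.fst ℂ V2 V2)) (x, x) :=
      (ContinuousLinearMap.proj (R := ℂ) (φ := fun _ : Fin 2 => ℂ) k).hasFDerivAt.comp (x, x)
        (hasFDerivAt_snd.sub hasFDerivAt_fst)
    unfold dy
    rw [h1.fderiv]
    simp
  -- `⟨J, s⟩` vanishes on the diagonal, its derivative is `J`
  have zs : ∀ (U : Tr A), U.Js (x, x) = 0 := by
    intro U; simp [Js]
  have dys : ∀ (U : Tr A), (∀ k, DifferentiableAt ℂ (U.J k) (x, x)) → ∀ l : Fin 2,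
      dy l U.Js (x, x) = ee l 0 • U.J 0 (x, x) + ee l 1 • U.J 1 (x, x) := by
    intro U hU l
    have e : dy l U.Js (x, x) = dy l (fun p : VV => (p.2 0 - p.1 0) • U.J 0 p +
      (p.2 1 - p.1 1) • U.J 1 p) (x, x) := rfl
    rw [e, dy_add ((ds 0).fun_smul (hU 0)) ((ds 1).fun_smul (hU 1)), dy_smul (ds 0) (hU 0),
      dy_smul (ds 1) (hU 1), es, es]
    simp
  have zn0 : S.nu0 T (x, x) = 0 := by
    simp [nu0, h.n_diag hx]
  have zn1 : S.nu1 T (x, x) = 0 := by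
    simp [nu1, h.n_diag hx]
  have e1 : dy 0 (S.R1 T) (x, x) = dy 0 (T.J 1) (x, x) + dy 0 (S.B T 1) (x, x) -
      dy 0 ((S.comp T).J 1) (x, x) + dy 0 (S.nu0 T) (x, x) • (1 : A) +
      S.B T 1 (x, x) * T.J 0 (x, x) := by
    have e : dy 0 (S.R1 T) (x, x) = dy 0 (fun p : VV =>
      T.J 1 p + S.B T 1 p - (S.comp T).J 1 p + S.nu0 T p • (1 : A) + S.B T 1 p * T.Js p +
      S.nu0 T p • (S.comp T).Js p) (x, x) := rfl
    have a1 := (dJ 1).fun_add (dB 1)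
    have a2 := a1.fun_sub (dC 1)
    have a3 := a2.fun_add (dn0.fun_smul d1)
    have a4 := a3.fun_add ((dB 1).fun_mul dJs)
    rw [e, dy_add a4 (dn0.fun_smul dCs), dy_add a3 ((dB 1).fun_mul dJs),
      dy_add a2 (dn0.fun_smul d1), dy_sub a1 (dC 1), dy_add (dJ 1) (dB 1), dy_smul dn0 d1,
      dy_mul (dB 1) dJs, dy_smul dn0 dCs, dys T dJ, zs, zs, zn0, dy_const]
    simp
  have e0 : dy 1 (S.R0 T) (x, x) = dy 1 (T.J 0) (x, x) + dy 1 (S.B T 0) (x, x) -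
      dy 1 ((S.comp T).J 0) (x, x) - dy 1 (S.nu1 T) (x, x) • (1 : A) +
      S.B T 0 (x, x) * T.J 1 (x, x) := by
    have e : dy 1 (S.R0 T) (x, x) = dy 1 (fun p : VV =>
      T.J 0 p + S.B T 0 p - (S.comp T).J 0 p - S.nu1 T p • (1 : A) + S.B T 0 p * T.Js p -
      S.nu1 T p • (S.comp T).Js p) (x, x) := rfl
    have a1 := (dJ 0).fun_add (dB 0)
    have a2 := a1.fun_sub (dC 0)
    have a3 := a2.fun_sub (dn1.fun_smul d1)
    have a4 := a3.fun_add ((dB 0).fun_mul dJs)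
    rw [e, dy_sub a4 (dn1.fun_smul dCs), dy_add a3 ((dB 0).fun_mul dJs),
      dy_sub a2 (dn1.fun_smul d1), dy_sub a1 (dC 0), dy_add (dJ 0) (dB 0), dy_smul dn1 d1,
      dy_mul (dB 0) dJs, dy_smul dn1 dCs, dys T dJ, zs, zs, zn1, dy_const]
    simp
  have e2 : S.r T (x, x) = (1 / 2 : ℂ) • (dy 0 (S.R1 T) (x, x) - dy 1 (S.R0 T) (x, x)) := by
    rw [r, Io_diag]
    norm_num
  have e3 := h.div_nu hx
  have e4 : dy 0 (S.nu0 T) (x, x) = -(1 / 12) *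
      (T.al 0 x * (S.comp T).al 1 x - T.al 1 x * (S.comp T).al 0 x).trace -
      dy 1 (S.nu1 T) (x, x) := by rw [← e3]; ring
  rw [e2, e1, e0, h.curl_B hx, h.hT.dy_J_symm hx 1 0, h.hC.dy_J_symm hx 1 0, e4]
  module

end CompOn

/-- **the Todd density** `rk [ (1/8) κ∧κ' - (1/24) tr(α∧α') ] + (1/4)(κ∧τε' + τε∧κ') + (1/2) τ(ε∧ε')`
with `x∧y = x₀ y₁ - x₁ y₀`, the unprimed cocycle of `T`, the primed one of `U = S∘T`. -/
def dens (τ : A →ₗ[ℂ] ℂ) (T U : Tr A) (x : V2) : ℂ :=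
  τ 1 * ((1 / 8) * ((T.al 0 x).trace * (U.al 1 x).trace - (T.al 1 x).trace * (U.al 0 x).trace) -
    (1 / 24) * (T.al 0 x * U.al 1 x - T.al 1 x * U.al 0 x).trace) +
  (1 / 4) * (((T.al 0 x).trace * τ (U.ep 1 x) - (T.al 1 x).trace * τ (U.ep 0 x)) +
    (τ (T.ep 0 x) * (U.al 1 x).trace - τ (T.ep 1 x) * (U.al 0 x).trace)) +
  (1 / 2) * τ (T.ep 0 x * U.ep 1 x - T.ep 1 x * U.ep 0 x)

/-- **the trace of `r` on the diagonal** -/
theorem CompOn.tr_r_diag [CompleteSpace A] (h : CompOn S T D D' Ω Ω') {x : V2}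
    (hx : (x, x) ∈ D) (τ : A →ₗ[ℂ] ℂ) (hτ : ∀ a b, τ (a * b) = τ (b * a)) :
    τ (S.r T (x, x)) = dens τ T (S.comp T) x := by
  rw [h.r_diag hx, h.B_diag hx, h.B_diag hx, h.hT.J_diag hx, h.hT.J_diag hx]
  simp only [dens, map_sub, map_add, map_smul, smul_eq_mul, mul_add, add_mul, mul_sub, sub_mul,
    mul_one, one_mul, smul_mul_assoc, mul_smul_comm, smul_add, smul_sub]
  rw [hτ ((S.comp T).ep 1 x) (T.ep 0 x), hτ ((S.comp T).ep 0 x) (T.ep 1 x),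
    hτ (T.ep 1 x) (T.ep 0 x)]
  ring

end Tr

end

end Vale.Agent.P267.H433
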